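import Vale.Agent.P088.R2.H168.INF.No3

/-!
# P088, stage 3: one slot, functions of the level

`f = T ∘ L`: the Hessian, `Λ f`, `Λ Λ f`.
-/

open MeasureTheory Set Filter
open scoped ContDiff Topology

noncomputable section

namespace Vale.Agent.P088.R2.H168.INF

open Vale.Agent.P088.R2.H961.GW Vale.Agent.P088.R2.H960.W Vale.Agent.P088.R2.H644
open Vale.Agent.P088.R2.H551.E

variable {E ι κ : Type*} [NormedAddCommGroup E] [NormedSpace ℝ E] [Fintype ι] [Fintype κ]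

section pw

variable {σ : Sl E ι} {τ : Sl E κ} {U : Set E} {θ θ' : E → ℝ} {v v₁ v₂ W f g h a b q m χ L : E → ℝ}
  {z : E} {lam mu e r : ℝ} {T T₁ T₂ T₃ T₄ : ℝ → ℝ}

theorem gA_Gr (ok : σ.Ok U θ) (f : E → ℝ) (z : E) (A : ι → ℝ) :
    gA σ f z A = ∑ i, Ch.Gr σ f i z * A i := by
  unfold gA Ch.Gr
  rw [Finset.sum_comm]
  refine Finset.sum_congr rfl fun i _ => ?_
  rw [Finset.sum_mul]
  refine Finset.sum_congr rfl fun j _ => ?_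
  rw [ok.sy j i]

theorem HH_eq_add (ok : σ.Ok U θ) (hf : Sm U f) (hg : Sm U g) (hz : z ∈ U) (A : ι → ℝ) :
    HH σ (fun z => f z + g z) z A = HH σ f z A + HH σ g z A := by
  unfold HH
  simp only [← Finset.sum_add_distrib]
  refine Finset.sum_congr rfl fun i _ => Finset.sum_congr rfl fun l _ => ?_
  rw [Ch.Hc_add ok hf hg i l hz]; ring

theorem HH_comp (ok : σ.Ok U θ) (c : Ch.Cp U L T T₁ T₂) (hz : z ∈ U) (A : ι → ℝ) :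
    HH σ (fun z => T (L z)) z A = T₁ (L z) * HH σ L z A + T₂ (L z) * gA σ L z A ^ 2 := by
  have e : ∀ i l, σ.Hc (fun z => T (L z)) i l z = T₁ (L z) * σ.Hc L i l z +
      T₂ (L z) * (Ch.Gr σ L i z * Ch.Gr σ L l z) := fun i l => Ch.Hc_comp ok c i l hz
  rw [gA_Gr ok]
  unfold HH
  simp only [e]
  have e2 : (∑ i, Ch.Gr σ L i z * A i) ^ 2 =
      ∑ i, ∑ l, (Ch.Gr σ L i z * Ch.Gr σ L l z) * A i * A l := by
    rw [sq, Finset.sum_mul_sum]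
    exact Finset.sum_congr rfl fun i _ => Finset.sum_congr rfl fun j _ => by ring
  rw [e2]
  simp only [Finset.mul_sum, ← Finset.sum_add_distrib]
  exact Finset.sum_congr rfl fun i _ => Finset.sum_congr rfl fun j _ => by ring

/-- `Λ Λ (T ∘ L)`. -/
theorem LL_comp (ok : σ.Ok U θ) (c₀ : Ch.Cp U L T T₁ T₂) (c₁ : Ch.Cp U L T₁ T₂ T₃)
    (c₂ : Ch.Cp U L T₂ T₃ T₄) (hz : z ∈ U) :
    σ.Λ (σ.Λ fun z => T (L z)) z = T₁ (L z) * σ.Λ (σ.Λ L) z +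
      2 * (T₂ (L z) * σ.Γ L (σ.Λ L) z) +
      σ.Λ L z * (T₂ (L z) * σ.Λ L z + T₃ (L z) * σ.Γ L L z) +
      (T₂ (L z) * σ.Λ (σ.Γ L L) z + 2 * (T₃ (L z) * σ.Γ L (σ.Γ L L) z) +
      σ.Γ L L z * (T₃ (L z) * σ.Λ L z + T₄ (L z) * σ.Γ L L z)) := by
  have hU := ok.op
  have sL := c₀.su
  have s1 : Sm U fun z => T₁ (L z) := c₁.s0
  have s2 : Sm U fun z => T₂ (L z) := c₂.s0
  have sp : Sm U (σ.Λ L) := ok.sL sL
  have sq' : Sm U (σ.Γ L L) := ok.sG sL sL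
  have e1 : ∀ z ∈ U, σ.Λ (fun z => T (L z)) z = T₁ (L z) * σ.Λ L z + T₂ (L z) * σ.Γ L L z :=
    fun z hz => Ch.L_comp ok c₀ hz
  rw [L_congr ok e1 hz, L_add ok (s1.mul sp) (s2.mul sq') hz, L_mul ok s1 sp hz,
    L_mul ok s2 sq' hz, Ch.L_comp ok c₁ hz, Ch.L_comp ok c₂ hz]
  have g1 : σ.Γ (fun z => T₁ (L z)) (σ.Λ L) z = T₂ (L z) * σ.Γ L (σ.Λ L) z := by
    rw [G_comm ok, Ch.G_comp ok _ c₁ hz, G_comm ok]
  have g2 : σ.Γ (fun z => T₂ (L z)) (σ.Γ L L) z = T₃ (L z) * σ.Γ L (σ.Γ L L) z := by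
    rw [G_comm ok, Ch.G_comp ok _ c₂ hz, G_comm ok]
  rw [g1, g2]
  ring

/-- `F` of a sum. -/
theorem gA_DW (σ : Sl E ι) (f W : E → ℝ) (z : E) : gA σ f z (fun i => σ.D i W z) = σ.Γ f W z := rfl

/-- **Convexity of the weight in one slot.** -/
theorem slot_h (ok : σ.Ok U θ) (c : Ch.Cp U L T T₁ T₂) (hρ : Sm U f) (hz : z ∈ U) {h δ : ℝ}
    (hs : ∀ A : ι → ℝ, 0 ≤ ss σ A z) (hL : ∀ A : ι → ℝ, h * ss σ A z ≤ HH σ L z A)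
    (hd : ∀ A : ι → ℝ, |HH σ f z A| ≤ δ * ss σ A z) (t1 : 0 ≤ T₁ (L z))
    (hδ : 2 * δ ≤ h * T₁ (L z)) (A : ι → ℝ) :
    h / 2 * T₁ (L z) * ss σ A z + T₂ (L z) * gA σ L z A ^ 2 ≤
      HH σ (fun z => T (L z) + f z) z A := by
  rw [HH_eq_add ok c.s0 hρ hz, HH_comp ok c hz]
  have h1 := mul_le_mul_of_nonneg_left (hL A) t1
  have h2 := (abs_le.1 (hd A)).1
  have h3 := mul_le_mul_of_nonneg_right hδ (hs A)
  nlinarith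

/-- `|Λ Λ (T ∘ L)|` where the level is quadratic and the metric flat. -/
theorem LL_bd (ok : σ.Ok U θ) (c₀ : Ch.Cp U L T T₁ T₂) (c₁ : Ch.Cp U L T₁ T₂ T₃)
    (c₂ : Ch.Cp U L T₂ T₃ T₄) (hz : z ∈ U) {K e' : ℝ} (hK : 1 ≤ K) (he : 0 ≤ e')
    (q0 : 9 / 10 ≤ σ.Γ L L z) (p1 : |σ.Λ L z| ≤ 1) (p2 : |σ.Λ (σ.Γ L L) z| ≤ 1)
    (p3 : σ.Γ L (σ.Λ L) z = 0) (p4 : |σ.Γ L (σ.Γ L L) z| ≤ σ.Γ L L z)
    (p5 : σ.Λ (σ.Λ L) z = 0) (t2 : 0 ≤ T₂ (L z)) (t3 : |T₃ (L z)| ≤ K * T₂ (L z) + e')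
    (t4 : |T₄ (L z)| ≤ K ^ 2 * T₂ (L z) + e') :
    |σ.Λ (σ.Λ fun z => T (L z)) z| ≤ (T₂ (L z) * (K + 3) ^ 2 + 7 * e') * σ.Γ L L z ^ 2 := by
  rw [LL_comp ok c₀ c₁ c₂ hz, p3, p5]
  set q := σ.Γ L L z
  set p := σ.Λ L z
  set t := T₂ (L z)
  have q1 : 0 ≤ q := by linarith
  have e : T₁ (L z) * 0 + 2 * (t * 0) + p * (t * p + T₃ (L z) * q) +
      (t * σ.Λ (σ.Γ L L) z + 2 * (T₃ (L z) * σ.Γ L (σ.Γ L L) z) +
      q * (T₃ (L z) * p + T₄ (L z) * q)) = t * (p * p) + t * σ.Λ (σ.Γ L L) z +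
      T₃ (L z) * (2 * (p * q) + 2 * σ.Γ L (σ.Γ L L) z) + T₄ (L z) * q ^ 2 := by ring
  rw [e]
  have b1 : |t * (p * p)| ≤ t := by
    rw [abs_mul, abs_of_nonneg t2, abs_mul]
    have h1 : |p| * |p| ≤ 1 := by nlinarith [abs_nonneg p]
    nlinarith
  have b2 : |t * σ.Λ (σ.Γ L L) z| ≤ t := by
    rw [abs_mul, abs_of_nonneg t2]
    nlinarith
  have b3 : |T₃ (L z) * (2 * (p * q) + 2 * σ.Γ L (σ.Γ L L) z)| ≤ (K * t + e') * (4 * q) := by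
    rw [abs_mul]
    refine mul_le_mul t3 ?_ (abs_nonneg _) (by positivity)
    refine (abs_add_le _ _).trans ?_
    have k1 : |2 * (p * q)| ≤ 2 * q := by
      rw [abs_mul, abs_mul, abs_of_pos (by norm_num : (0 : ℝ) < 2), abs_of_nonneg q1]
      have := mul_le_mul_of_nonneg_right p1 q1
      linarith
    have k2 : |2 * σ.Γ L (σ.Γ L L) z| ≤ 2 * q := by
      rw [abs_mul, abs_of_pos (by norm_num : (0 : ℝ) < 2)]
      linarith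
    linarith
  have b4 : |T₄ (L z) * q ^ 2| ≤ (K ^ 2 * t + e') * q ^ 2 := by
    rw [abs_mul, abs_of_nonneg (sq_nonneg q)]
    exact mul_le_mul_of_nonneg_right t4 (sq_nonneg _)
  have h1 : |t * (p * p) + t * σ.Λ (σ.Γ L L) z +
      T₃ (L z) * (2 * (p * q) + 2 * σ.Γ L (σ.Γ L L) z) + T₄ (L z) * q ^ 2| ≤
      t + t + (K * t + e') * (4 * q) + (K ^ 2 * t + e') * q ^ 2 :=
    (abs_add_le _ _).trans (add_le_add ((abs_add_le _ _).trans (add_le_add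
      ((abs_add_le _ _).trans (add_le_add b1 b2)) b3)) b4)
  refine h1.trans ?_
  have q2 : 81 / 100 ≤ q ^ 2 := by nlinarith
  have q3 : q ≤ 10 / 9 * q ^ 2 := by nlinarith
  have k1 : t * 2 ≤ t * (3 * q ^ 2) := mul_le_mul_of_nonneg_left (by linarith) t2
  have k2 : K * t * (4 * q) ≤ K * t * (5 * q ^ 2) :=
    mul_le_mul_of_nonneg_left (by linarith) (by positivity)
  have k3 : e' * (4 * q) ≤ e' * (5 * q ^ 2) := mul_le_mul_of_nonneg_left (by linarith) he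
  have k4 : 0 ≤ K * t * q ^ 2 := by positivity
  have k5 : 0 ≤ t * q ^ 2 := by positivity
  have k6 : 0 ≤ e' * q ^ 2 := by positivity
  nlinarith

/-- **The fourth order term is paid** (high levels). -/
theorem slot_o (ok : σ.Ok U θ) (c₀ : Ch.Cp U L T T₁ T₂) (c₁ : Ch.Cp U L T₁ T₂ T₃)
    (c₂ : Ch.Cp U L T₂ T₃ T₄) (hρ : Sm U f) (hz : z ∈ U) {h δ K e' M : ℝ} (hK : 1 ≤ K)
    (he : 0 ≤ e') (hs : ∀ A : ι → ℝ, 0 ≤ ss σ A z)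
    (hL : ∀ A : ι → ℝ, h * ss σ A z ≤ HH σ L z A)
    (hd : ∀ A : ι → ℝ, |HH σ f z A| ≤ δ * ss σ A z) (hδ : 2 * δ ≤ h * T₁ (L z))
    (hd2 : |σ.Λ (σ.Λ f) z| ≤ e / 8) (hd3 : |σ.Γ L f z| ≤ M / 4) (hh : 0 ≤ h)
    (q0 : 9 / 10 ≤ σ.Γ L L z) (p1 : |σ.Λ L z| ≤ 1) (p2 : |σ.Λ (σ.Γ L L) z| ≤ 1)
    (p3 : σ.Γ L (σ.Λ L) z = 0) (p4 : |σ.Γ L (σ.Γ L L) z| ≤ σ.Γ L L z)
    (p5 : σ.Λ (σ.Λ L) z = 0) (t2 : 0 ≤ T₂ (L z)) (t3 : |T₃ (L z)| ≤ K * T₂ (L z) + e')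
    (t4 : |T₄ (L z)| ≤ K ^ 2 * T₂ (L z) + e') (t1 : M ≤ T₁ (L z)) (hM : 3 * (K + 3) ≤ M)
    (hee : 7 * e' * σ.Γ L L z ^ 2 ≤ e / 8) :
    2 * |σ.Λ (σ.Λ fun z => T (L z) + f z) z| ≤
      e / 2 + HH σ (fun z => T (L z) + f z) z (fun i => σ.D i (fun z => T (L z) + f z) z) := by
  have hU := ok.op
  have t1' : 0 ≤ T₁ (L z) := by linarith
  have e1 : ∀ z ∈ U, σ.Λ (fun z => T (L z) + f z) z = σ.Λ (fun z => T (L z)) z + σ.Λ f z :=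
    fun z hz => L_add ok c₀.s0 hρ hz
  have e2 : σ.Λ (σ.Λ fun z => T (L z) + f z) z =
      σ.Λ (σ.Λ fun z => T (L z)) z + σ.Λ (σ.Λ f) z := by
    rw [L_congr ok e1 hz, L_add ok (ok.sL c₀.s0) (ok.sL hρ) hz]
  have b1 := LL_bd ok c₀ c₁ c₂ hz hK he q0 p1 p2 p3 p4 p5 t2 t3 t4
  have b2 := slot_h ok c₀ hρ hz hs hL hd t1' hδ
    (fun i => σ.D i (fun z => T (L z) + f z) z)
  have b3 := hs fun i => σ.D i (fun z => T (L z) + f z) z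
  rw [gA_DW, G_add ok L c₀.s0 hρ hz, Ch.G_comp ok L c₀ hz] at b2
  set q := σ.Γ L L z
  set t := T₂ (L z)
  have g1 : M * q / 2 ≤ T₁ (L z) * q + σ.Γ L f z := by
    have h1 := (abs_le.1 hd3).1
    have h2 : M * q ≤ T₁ (L z) * q := mul_le_mul_of_nonneg_right t1 (by linarith)
    nlinarith
  have g2 : (M * q / 2) ^ 2 ≤ (T₁ (L z) * q + σ.Γ L f z) ^ 2 := by
    refine pow_le_pow_left₀ ?_ g1 2
    have : 0 ≤ M := by linarith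
    have : 0 ≤ q := by linarith
    positivity
  have g3 : 2 * ((K + 3) ^ 2 * q ^ 2) ≤ (M * q / 2) ^ 2 := by
    have h1 : (3 * (K + 3)) ^ 2 ≤ M ^ 2 := pow_le_pow_left₀ (by linarith) hM 2
    have h2 := mul_le_mul_of_nonneg_right h1 (sq_nonneg q)
    nlinarith [sq_nonneg ((K + 3) * q)]
  have g4 : t * (2 * ((K + 3) ^ 2 * q ^ 2)) ≤ t * (T₁ (L z) * q + σ.Γ L f z) ^ 2 :=
    mul_le_mul_of_nonneg_left (g3.trans g2) t2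
  rw [e2]
  have g5 := abs_add_le (σ.Λ (σ.Λ fun z => T (L z)) z) (σ.Λ (σ.Λ f) z)
  have g6 : 0 ≤ h / 2 * T₁ (L z) * ss σ (fun i => σ.D i (fun z => T (L z) + f z) z) z := by
    positivity
  linarith

end pw

end Vale.Agent.P088.R2.H168.INF
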