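import Vale.Agent.P088.R2.H551.E.Cur

/-!
# P088, stage 3: the normal ordered form of the star density

For one slot and a smooth multiplier `q`
`∫ q (8 Hd - 8 G2 a² - 8 a X1(Λ W) + 2 Λ Λ W a²) =`
`∫ q (8 H(D a, D a) + 8 a² H(D W, D W) - 2 Λ Λ W a²) + 4 ∫ a² Γ(q, F - Λ W)`.
No lower bound of `|D W|` is needed to use the right side: it serves the deep interior, where the
weight is separable up to negligible terms and convex, and the outer region.
-/

open MeasureTheory Set Filter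
open scoped ContDiff Topology

noncomputable section

namespace Vale.Agent.P088.R2.H168.INF

open Vale.Agent.P088.R2.H961.GW Vale.Agent.P088.R2.H960.W Vale.Agent.P088.R2.H644
open Vale.Agent.P088.R2.H551.E

variable {E ι κ : Type*} [NormedAddCommGroup E] [NormedSpace ℝ E] [Fintype ι] [Fintype κ]

/-- `H(D a, D a) + a² H(D W, D W)`. -/
def nd (σ : Sl E ι) (W a : E → ℝ) (z : E) : ℝ :=
  1 / 2 * σ.Hf W a z + 1 / 2 * (a z ^ 2 * σ.Γ W (σ.F W) z)

/-- The star density of one slot. -/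
def s1 (σ : Sl E ι) (W a : E → ℝ) (z : E) : ℝ :=
  8 * σ.Hd W a z - 8 * (Ch.G2 σ W z * a z ^ 2) - 8 * (a z * Ch.X1 σ W (σ.Λ W) a z) +
    2 * (σ.Λ (σ.Λ W) z * a z ^ 2)

/-- The normal ordered density of one slot. -/
def n1 (σ : Sl E ι) (W a : E → ℝ) (z : E) : ℝ :=
  8 * nd σ W a z - 2 * (σ.Λ (σ.Λ W) z * a z ^ 2)

/-- The mixed terms of the star density. -/
def mx (σ : Sl E ι) (τ : Sl E κ) (v₁ v₂ W a b : E → ℝ) (z : E) : ℝ :=
  16 * Md σ τ W a b z - 16 * (M2 σ τ W W z * (a z * b z)) -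
    8 * (b z * Ch.X1 σ W (τ.Λ W) a z + a z * Ch.X1 τ W (σ.Λ W) b z) +
    4 * (σ.Λ (τ.Λ W) z * (a z * b z)) + 4 * (σ.Γ W v₁ z * a z ^ 2 + τ.Γ W v₂ z * b z ^ 2)

/-- The drift produced by the multiplier. -/
def dr (σ : Sl E ι) (W q : E → ℝ) (z : E) : ℝ := σ.Γ q (fun z => σ.F W z - σ.Λ W z) z

section pw

variable {σ : Sl E ι} {τ : Sl E κ} {U : Set E} {θ : E → ℝ} {v v₁ v₂ W f g h a b q χ : E → ℝ}
  {z : E}

theorem sta_eq (ok : σ.Ok U θ) (ot : τ.Ok U θ) (hW : Sm U W) (ha : Sm U a) (hb : Sm U b)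
    (hz : z ∈ U) : sta σ τ v₁ v₂ W a b z = s1 σ W a z + s1 τ W b z + mx σ τ v₁ v₂ W a b z := by
  unfold sta s1 mx qs
  rw [Ch.TH_XX ok ot hW ha hb hz]
  ring

theorem tnd (ok : σ.Ok U θ) (hW : Sm U W) (ha : Te U a) : Te U (nd σ W a) :=
  ((ok.tHf hW ha).cmul ok.op _).add ok.op
    (((ha.sq ok.op).mul_right ok.op (ok.sG hW (ok.sF hW))).cmul ok.op _)

theorem ts1 (ok : σ.Ok U θ) (hW : Sm U W) (ha : Te U a) : Te U (s1 σ W a) := by
  have hU := ok.op
  have sL := ok.sL hW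
  have ta := ha.sq hU
  exact ((((ok.tHd hW ha).cmul hU 8).sub hU ((ta.mul_left hU (Ch.sG2 ok hW)).cmul hU 8)).sub hU
    ((Ch.tX1s ok hW sL ha ha.sm).cmul hU 8)).add hU ((ta.mul_left hU (ok.sL sL)).cmul hU 2)

theorem tn1 (ok : σ.Ok U θ) (hW : Sm U W) (ha : Te U a) : Te U (n1 σ W a) :=
  ((tnd ok hW ha).cmul ok.op 8).sub ok.op
    (((ha.sq ok.op).mul_left ok.op (ok.sL (ok.sL hW))).cmul ok.op 2)

theorem tmx (ok : σ.Ok U θ) (ot : τ.Ok U θ) (hv₁ : Sm U v₁) (hv₂ : Sm U v₂) (hW : Sm U W)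
    (ha : Te U a) (hb : Te U b) : Te U (mx σ τ v₁ v₂ W a b) := by
  have hU := ok.op
  have ta := ha.sq hU
  have tb := hb.sq hU
  have tab : Te U fun z => a z * b z := ha.mul_right hU hb.sm
  have sL1 := ok.sL hW
  have sL2 := ot.sL hW
  exact (((((Ch.tMd ok ot hW ha hb).cmul hU 16).sub hU
    ((tab.mul_left hU (sM2 ok ot hW hW)).cmul hU 16)).sub hU
    (((Ch.tX1s ok hW sL2 ha hb.sm).add hU (Ch.tX1s ot hW sL1 hb ha.sm)).cmul hU 8)).add hU
    ((tab.mul_left hU (ok.sL sL2)).cmul hU 4)).add hU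
    (((ta.mul_left hU (ok.sG hW hv₁)).add hU (tb.mul_left hU (ot.sG hW hv₂))).cmul hU 4)

theorem sdr (ok : σ.Ok U θ) (hW : Sm U W) (hq : Sm U q) : Sm U (dr σ W q) :=
  ok.sG hq ((ok.sF hW).sub (ok.sL hW))

end pw

variable [MeasureSpace E] [FiniteDimensional ℝ E] [BorelSpace E]
  [(volume : Measure E).IsAddHaarMeasure]

section integral

variable {σ : Sl E ι} {τ : Sl E κ} {U : Set E} {θ : E → ℝ} {v v₁ v₂ W f g h a b q m χ : E → ℝ}

/-- `∫ q a Γ(g, a) = -(1/2) ∫ a² (q Λ g + Γ(q, g))`. -/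
theorem In_qaG (ok : σ.Ok U θ) (hg : Sm U g) (hq : Sm U q) (ha : Te U a) :
    In U θ (fun z => q z * (a z * σ.Γ g a z)) =
      -(1 / 2) * In U θ (fun z => (q z * σ.Λ g z + σ.Γ q g z) * a z ^ 2) := by
  have hU := ok.op
  have ta := ha.sq hU
  have t1 : Te U fun z => q z * a z ^ 2 := ta.mul_left hU hq
  have e := In_L ok hg t1
  have t2 : Te U fun z => σ.Λ g z * (q z * a z ^ 2) := t1.mul_left hU (ok.sL hg)
  have t3 : Te U fun z => σ.Γ q g z * a z ^ 2 := ta.mul_left hU (ok.sG hq hg)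
  have t4 : Te U fun z => q z * (a z * σ.Γ g a z) :=
    (ha.mul_right hU (ok.sG hg ha.sm)).mul_left hU hq
  have e2 : In U θ (σ.Γ g fun z => q z * a z ^ 2) =
      In U θ (fun z => 2 * (q z * (a z * σ.Γ g a z)) + σ.Γ q g z * a z ^ 2) := by
    refine In_congr hU fun z hz => ?_
    rw [G_mul ok g hq ta.sm hz, G_sq ok g ha.sm hz, G_comm ok g q]
    ring
  have e3 : In U θ (fun z => (q z * σ.Λ g z + σ.Γ q g z) * a z ^ 2) =
      In U θ (fun z => σ.Λ g z * (q z * a z ^ 2) + σ.Γ q g z * a z ^ 2) :=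
    In_congr hU fun z _ => by ring
  rw [e2, In_add hU ok.ts (t4.cmul hU 2) t3, In_cmul] at e
  rw [e3, In_add hU ok.ts t2 t3]
  linarith

/-- **The normal ordered form of the density of one slot.** -/
theorem slot_no (ok : σ.Ok U θ) (hW : Sm U W) (ha : Te U a) (hq : Sm U q) :
    In U θ (fun z => q z * s1 σ W a z) =
      In U θ (fun z => q z * n1 σ W a z) + 4 * In U θ (fun z => dr σ W q z * a z ^ 2) := by
  have hU := ok.op
  have ta := ha.sq hU
  have sF := ok.sF hW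
  have sL := ok.sL hW
  have i1 := In_qaG ok sF hq ha
  have i2 := In_qaG ok sL hq ha
  have t1 : Te U fun z => q z * (a z * σ.Γ (σ.F W) a z) :=
    (ha.mul_right hU (ok.sG sF ha.sm)).mul_left hU hq
  have t2 : Te U fun z => q z * (a z * σ.Γ (σ.Λ W) a z) :=
    (ha.mul_right hU (ok.sG sL ha.sm)).mul_left hU hq
  have t3 : Te U fun z => (q z * σ.Λ (σ.F W) z + σ.Γ q (σ.F W) z) * a z ^ 2 :=
    ta.mul_left hU ((hq.mul (ok.sL sF)).add (ok.sG hq sF))
  have t4 : Te U fun z => (q z * σ.Λ (σ.Λ W) z + σ.Γ q (σ.Λ W) z) * a z ^ 2 :=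
    ta.mul_left hU ((hq.mul (ok.sL sL)).add (ok.sG hq sL))
  have t5 : Te U fun z => q z * n1 σ W a z := (tn1 ok hW ha).mul_left hU hq
  have t6 : Te U fun z => dr σ W q z * a z ^ 2 := ta.mul_left hU (sdr ok hW hq)
  have t7 : Te U fun z => q z * s1 σ W a z := (ts1 ok hW ha).mul_left hU hq
  have e : In U θ (fun z => q z * s1 σ W a z) =
      In U θ (fun z => ((q z * n1 σ W a z + 4 * (dr σ W q z * a z ^ 2)) +
        ((-8) * (q z * (a z * σ.Γ (σ.F W) a z)) +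
          (-4) * ((q z * σ.Λ (σ.F W) z + σ.Γ q (σ.F W) z) * a z ^ 2))) +
        (8 * (q z * (a z * σ.Γ (σ.Λ W) a z)) +
          4 * ((q z * σ.Λ (σ.Λ W) z + σ.Γ q (σ.Λ W) z) * a z ^ 2))) := by
    refine In_congr hU fun z hz => ?_
    unfold s1 n1 nd dr Sl.Hd Ch.G2 Ch.X1
    rw [G_sub ok q sF sL hz, G_comm ok a (σ.F W), G_comm ok (σ.Λ W) W]
    ring
  rw [e, In_add hU ok.ts ((t5.add hU (t6.cmul hU 4)).add hU ((t1.cmul hU (-8)).add hU
      (t3.cmul hU (-4)))) ((t2.cmul hU 8).add hU (t4.cmul hU 4)),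
    In_add hU ok.ts (t5.add hU (t6.cmul hU 4)) ((t1.cmul hU (-8)).add hU (t3.cmul hU (-4))),
    In_add hU ok.ts t5 (t6.cmul hU 4), In_add hU ok.ts (t1.cmul hU (-8)) (t3.cmul hU (-4)),
    In_add hU ok.ts (t2.cmul hU 8) (t4.cmul hU 4), In_cmul, In_cmul, In_cmul, In_cmul, In_cmul,
    i1, i2]
  ring

/-- **The normal ordered form of the star density.** -/
theorem sta_no (ok : σ.Ok U θ) (ot : τ.Ok U θ) (hv₁ : Sm U v₁) (hv₂ : Sm U v₂) (hW : Sm U W)
    (ha : Te U a) (hb : Te U b) (hq : Sm U q) :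
    In U θ (fun z => q z * sta σ τ v₁ v₂ W a b z) =
      In U θ (fun z => q z * (n1 σ W a z + n1 τ W b z + mx σ τ v₁ v₂ W a b z) +
        4 * (dr σ W q z * a z ^ 2 + dr τ W q z * b z ^ 2)) := by
  have hU := ok.op
  have ta := ha.sq hU
  have tb := hb.sq hU
  have e1 := slot_no ok hW ha hq
  have e2 := slot_no ot hW hb hq
  have t1 : Te U fun z => q z * s1 σ W a z := (ts1 ok hW ha).mul_left hU hq
  have t2 : Te U fun z => q z * s1 τ W b z := (ts1 ot hW hb).mul_left hU hq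
  have t3 : Te U fun z => q z * mx σ τ v₁ v₂ W a b z :=
    (tmx ok ot hv₁ hv₂ hW ha hb).mul_left hU hq
  have t4 : Te U fun z => q z * n1 σ W a z := (tn1 ok hW ha).mul_left hU hq
  have t5 : Te U fun z => q z * n1 τ W b z := (tn1 ot hW hb).mul_left hU hq
  have t6 : Te U fun z => dr σ W q z * a z ^ 2 := ta.mul_left hU (sdr ok hW hq)
  have t7 : Te U fun z => dr τ W q z * b z ^ 2 := tb.mul_left hU (sdr ot hW hq)
  have f1 : In U θ (fun z => q z * sta σ τ v₁ v₂ W a b z) = In U θ (fun z =>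
      (q z * s1 σ W a z + q z * s1 τ W b z) + q z * mx σ τ v₁ v₂ W a b z) := by
    refine In_congr hU fun z hz => ?_
    rw [sta_eq ok ot hW ha.sm hb.sm hz]
    ring
  have f2 : In U θ (fun z => q z * (n1 σ W a z + n1 τ W b z + mx σ τ v₁ v₂ W a b z) +
        4 * (dr σ W q z * a z ^ 2 + dr τ W q z * b z ^ 2)) = In U θ (fun z =>
      ((q z * n1 σ W a z + q z * n1 τ W b z) + q z * mx σ τ v₁ v₂ W a b z) +
        (4 * (dr σ W q z * a z ^ 2) + 4 * (dr τ W q z * b z ^ 2))) := by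
    refine In_congr hU fun z _ => ?_
    ring
  rw [f1, f2, In_add hU ok.ts (t1.add hU t2) t3, In_add hU ok.ts t1 t2,
    In_add hU ok.ts ((t4.add hU t5).add hU t3) ((t6.cmul hU 4).add hU (t7.cmul hU 4)),
    In_add hU ok.ts (t4.add hU t5) t3, In_add hU ok.ts t4 t5,
    In_add hU ok.ts (t6.cmul hU 4) (t7.cmul hU 4), In_cmul, In_cmul]
  linarith

end integral

end Vale.Agent.P088.R2.H168.INF
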