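import Vale.Agent.P088.R2.H168.INF.No

/-!
# P088, stage 3: zones by real convexity in the normal ordered form

`zone_no`: if at every point the normal ordered form (the multiplier drift included) is at least
`m₁ (s(p, p) + F x²) + m₂ (s'(q, q) + F' y²) + o₁ x² + o₂ y²`, then the zone inequality holds with the
margins `ζ_j = m_j / 12`, `w_j = (m_j F_j + m_j Λ_j W + Γ_j(m_j, W)) / 3 + o_j`.
The last summand of `w_j` is the zero point energy; no lower bound of `|D W|` is used.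
-/

open MeasureTheory Set Filter
open scoped ContDiff Topology

noncomputable section

namespace Vale.Agent.P088.R2.H168.INF

open Vale.Agent.P088.R2.H961.GW Vale.Agent.P088.R2.H960.W Vale.Agent.P088.R2.H644
open Vale.Agent.P088.R2.H551.E

variable {E ι κ : Type*} [NormedAddCommGroup E] [NormedSpace ℝ E] [Fintype ι] [Fintype κ]

/-- `s(A, A)`. -/
def ss (σ : Sl E ι) (A : ι → ℝ) (z : E) : ℝ := ∑ i, ∑ j, σ.s i j z * A i * A j

/-- `s(D f, A)`. -/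
def gA (σ : Sl E ι) (f : E → ℝ) (z : E) (A : ι → ℝ) : ℝ := ∑ i, ∑ j, σ.s i j z * σ.D i f z * A j

/-- `H(A, A)`. -/
def HH (σ : Sl E ι) (W : E → ℝ) (z : E) (A : ι → ℝ) : ℝ := ∑ i, ∑ l, σ.Hc W i l z * A i * A l

/-- The mixed Hessian on `(A, B)`. -/
def MM (σ : Sl E ι) (τ : Sl E κ) (W : E → ℝ) (z : E) (A : ι → ℝ) (B : κ → ℝ) : ℝ :=
  ∑ i, ∑ k, Ch.Mc σ τ W i k z * A i * B k

/-- `x D W - p`. -/
def xw (σ : Sl E ι) (W : E → ℝ) (z : E) (p : ι → ℝ) (x : ℝ) (i : ι) : ℝ := x * σ.D i W z - p i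

/-- The mixed part of the normal ordered form at a point. -/
def mf (σ : Sl E ι) (τ : Sl E κ) (v₁ v₂ W : E → ℝ) (z : E) (p : ι → ℝ) (q : κ → ℝ) (x y : ℝ) : ℝ :=
  16 * MM σ τ W z (xw σ W z p x) (xw τ W z q y) - 16 * (M2 σ τ W W z * (x * y)) -
    8 * (y * gA σ (τ.Λ W) z (xw σ W z p x) + x * gA τ (σ.Λ W) z (xw τ W z q y)) +
    4 * (σ.Λ (τ.Λ W) z * (x * y)) + 4 * (σ.Γ W v₁ z * x ^ 2 + τ.Γ W v₂ z * y ^ 2)

/-- The normal ordered form of one slot at a point. -/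
def nf1 (σ : Sl E ι) (W : E → ℝ) (z : E) (p : ι → ℝ) (x : ℝ) : ℝ :=
  8 * (HH σ W z p + x ^ 2 * HH σ W z (fun i => σ.D i W z)) - 2 * (σ.Λ (σ.Λ W) z * x ^ 2)

/-- The normal ordered form at a point. -/
def nf (σ : Sl E ι) (τ : Sl E κ) (v₁ v₂ W : E → ℝ) (z : E) (p : ι → ℝ) (q : κ → ℝ) (x y : ℝ) : ℝ :=
  nf1 σ W z p x + nf1 τ W z q y + mf σ τ v₁ v₂ W z p q x y

section pw

variable {σ : Sl E ι} {τ : Sl E κ} {U : Set E} {θ : E → ℝ} {v v₁ v₂ W f g h a b q m χ : E → ℝ}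
  {z : E}

theorem n1_nf (ok : σ.Ok U θ) (hW : Sm U W) (ha : Sm U a) (hz : z ∈ U) :
    n1 σ W a z = nf1 σ W z (fun i => σ.D i a z) (a z) := by
  have e1 := Hs_eq ok hW ha ha hz
  have e3 := Hs_eq ok hW hW hW hz
  have f3 := Hs_W (W := W) ok W z
  have f1 : σ.Hs W a a z = 1 / 2 * σ.Hf W a z := by
    unfold Sl.Hs Sl.Hf; ring
  unfold n1 nd nf1 HH
  rw [← e1, ← e3, f1, f3]
  ring

theorem Md_MM (ok : σ.Ok U θ) (ot : τ.Ok U θ) (hW : Sm U W) (ha : Sm U a) (hb : Sm U b)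
    (hz : z ∈ U) : Md σ τ W a b z = MM σ τ W z (Ch.XX σ W a z) (Ch.XX τ W b z) := by
  have e := Ch.TH_XX ok ot hW ha hb hz
  have e1 := Hd_eq ok hW ha hz
  have e2 := Hd_eq ot hW hb hz
  unfold Ch.TH at e
  have f1 : ∑ i, ∑ l, σ.Hc W i l z * Ch.XX σ W a z i * Ch.XX σ W a z l = σ.Hd W a z := e1.symm
  have f2 : ∑ i, ∑ l, τ.Hc W i l z * Ch.XX τ W b z i * Ch.XX τ W b z l = τ.Hd W b z := e2.symm
  rw [f1, f2] at e
  unfold MM
  linarith

theorem mx_mf (ok : σ.Ok U θ) (ot : τ.Ok U θ) (hW : Sm U W) (ha : Sm U a) (hb : Sm U b)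
    (hz : z ∈ U) : mx σ τ v₁ v₂ W a b z =
      mf σ τ v₁ v₂ W z (fun i => σ.D i a z) (fun i => τ.D i b z) (a z) (b z) := by
  unfold mx mf
  rw [Md_MM ok ot hW ha hb hz, Ch.X1_eq, Ch.X1_eq]
  rfl

theorem tss (ok : σ.Ok U θ) {u : ι → E → ℝ} (hu : ∀ i, Te U (u i)) :
    Te U fun z => ss σ (fun i => u i z) z :=
  Te.sum ok.op _ fun i _ => Te.sum ok.op _ fun j _ =>
    (hu j).mul_left ok.op ((ok.ss i j).mul (hu i).sm)

theorem ssX (ok : σ.Ok U θ) (W a : E → ℝ) (z : E) : ss σ (Ch.XX σ W a z) z =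
    σ.Γ a a z + σ.F W z * a z ^ 2 - 2 * (a z * σ.Γ W a z) := by
  have e : 2 * (a z * σ.Γ W a z) = a z * σ.Γ W a z + a z * σ.Γ a W z := by
    rw [G_comm ok a W]; ring
  rw [e]
  unfold ss Ch.XX Sl.F Sl.Γ
  simp only [Finset.mul_sum, Finset.sum_mul, ← Finset.sum_add_distrib, ← Finset.sum_sub_distrib]
  exact Finset.sum_congr rfl fun i _ => Finset.sum_congr rfl fun j _ => by ring

theorem ssY (ok : σ.Ok U θ) (W a : E → ℝ) (z : E) : ss σ (fun i => YY σ W a i z) z =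
    σ.Γ a a z + σ.F W z * a z ^ 2 + 2 * (a z * σ.Γ W a z) := by
  have e : 2 * (a z * σ.Γ W a z) = a z * σ.Γ W a z + a z * σ.Γ a W z := by
    rw [G_comm ok a W]; ring
  rw [e]
  unfold ss YY Sl.F Sl.Γ
  simp only [Finset.mul_sum, Finset.sum_mul, ← Finset.sum_add_distrib]
  exact Finset.sum_congr rfl fun i _ => Finset.sum_congr rfl fun j _ => by ring

end pw

/-- The zero point density. -/
def zp (σ : Sl E ι) (W m : E → ℝ) (z : E) : ℝ := m z * σ.Λ W z + σ.Γ m W z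

variable [MeasureSpace E] [FiniteDimensional ℝ E] [BorelSpace E]
  [(volume : Measure E).IsAddHaarMeasure]

section integral

variable {σ : Sl E ι} {τ : Sl E κ} {U : Set E} {θ : E → ℝ} {v v₁ v₂ W f g h a b q m χ : E → ℝ}

/-- The energy `∫ m (|D a|² + F a²)` dominates the starred energy and the zero point energy. -/
theorem energy (ok : σ.Ok U θ) (hW : Sm U W) (ha : Te U a) (hm : Sm U m) (m0 : ∀ z ∈ U, 0 ≤ m z)
    (lo : ∀ z ∈ U, ∀ A : ι → ℝ, 0 ≤ ss σ A z) :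
    In U θ (fun z => m z * ss σ (Ch.XX σ W a z) z) =
      In U θ (fun z => m z * (σ.Γ a a z + σ.F W z * a z ^ 2)) +
        In U θ (fun z => zp σ W m z * a z ^ 2) ∧
    In U θ (fun z => zp σ W m z * a z ^ 2) ≤
      In U θ (fun z => m z * (σ.Γ a a z + σ.F W z * a z ^ 2)) := by
  have hU := ok.op
  have ta := ha.sq hU
  have i1 := In_qaG ok hW hm ha
  have t1 : Te U fun z => m z * (σ.Γ a a z + σ.F W z * a z ^ 2) :=
    ((ok.tG ha.sm ha).add hU (ta.mul_left hU (ok.sF hW))).mul_left hU hm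
  have t2 : Te U fun z => m z * (a z * σ.Γ W a z) :=
    (ha.mul_right hU (ok.sG hW ha.sm)).mul_left hU hm
  have e1 : In U θ (fun z => m z * ss σ (Ch.XX σ W a z) z) =
      In U θ (fun z => m z * (σ.Γ a a z + σ.F W z * a z ^ 2) + (-2) * (m z * (a z * σ.Γ W a z))) := by
    refine In_congr hU fun z _ => ?_
    rw [ssX ok]; ring
  have e2 : In U θ (fun z => m z * ss σ (fun i => YY σ W a i z) z) =
      In U θ (fun z => m z * (σ.Γ a a z + σ.F W z * a z ^ 2) + 2 * (m z * (a z * σ.Γ W a z))) := by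
    refine In_congr hU fun z _ => ?_
    rw [ssY ok]; ring
  have e3 : In U θ (fun z => (m z * σ.Λ W z + σ.Γ m W z) * a z ^ 2) =
      In U θ (fun z => zp σ W m z * a z ^ 2) := rfl
  rw [In_add hU ok.ts t1 (t2.cmul hU (-2)), In_cmul, i1, e3] at e1
  rw [In_add hU ok.ts t1 (t2.cmul hU 2), In_cmul, i1, e3] at e2
  have h2 : 0 ≤ In U θ (fun z => m z * ss σ (fun i => YY σ W a i z) z) :=
    In_nonneg hU ok.tp fun z hz => mul_nonneg (m0 z hz) (lo z hz _)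
  constructor
  · linarith
  · linarith

/-- The energy of one slot, the form used below. -/
theorem energy3 (ok : σ.Ok U θ) (hW : Sm U W) (ha : Te U a) (hm : Sm U m) (m0 : ∀ z ∈ U, 0 ≤ m z)
    (lo : ∀ z ∈ U, ∀ A : ι → ℝ, ∑ i, A i ^ 2 ≤ 2 * ss σ A z) :
    In U θ (fun z => 1 / 12 * m z * nX σ W a z +
        1 / 3 * (m z * σ.F W z + zp σ W m z) * a z ^ 2) ≤
      In U θ (fun z => m z * (σ.Γ a a z + σ.F W z * a z ^ 2)) := by
  have hU := ok.op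
  have ta := ha.sq hU
  have l0 : ∀ z ∈ U, ∀ A : ι → ℝ, 0 ≤ ss σ A z := fun z hz A => by
    have h1 := lo z hz A
    have h2 : 0 ≤ ∑ i, A i ^ 2 := Finset.sum_nonneg fun i _ => sq_nonneg _
    linarith
  obtain ⟨e1, e2⟩ := energy ok hW ha hm m0 l0
  have sz : Sm U (zp σ W m) := (hm.mul (ok.sL hW)).add (ok.sG hm hW)
  have t1 : Te U fun z => m z * (σ.Γ a a z + σ.F W z * a z ^ 2) :=
    ((ok.tG ha.sm ha).add hU (ta.mul_left hU (ok.sF hW))).mul_left hU hm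
  have t2 : Te U fun z => m z * ss σ (Ch.XX σ W a z) z :=
    (tss ok fun i => tX ok hW ha i).mul_left hU hm
  have t3 : Te U fun z => zp σ W m z * a z ^ 2 := ta.mul_left hU sz
  have t4 : Te U fun z => m z * nX σ W a z := (tnX ok hW ha).mul_left hU hm
  have t5 : Te U fun z => m z * σ.F W z * a z ^ 2 := ta.mul_left hU (hm.mul (ok.sF hW))
  have f1 : In U θ (fun z => 1 / 12 * m z * nX σ W a z +
        1 / 3 * (m z * σ.F W z + zp σ W m z) * a z ^ 2) = 1 / 12 * In U θ (fun z =>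
        m z * nX σ W a z) + 1 / 3 * In U θ (fun z => m z * σ.F W z * a z ^ 2) +
        1 / 3 * In U θ (fun z => zp σ W m z * a z ^ 2) := by
    rw [← In_cmul, ← In_cmul, ← In_cmul, ← In_add hU ok.ts (t4.cmul hU _) (t5.cmul hU _),
      ← In_add hU ok.ts ((t4.cmul hU _).add hU (t5.cmul hU _)) (t3.cmul hU _)]
    exact In_congr hU fun z _ => by ring
  have g1 : In U θ (fun z => m z * nX σ W a z) ≤
      In U θ (fun z => 2 * (m z * ss σ (Ch.XX σ W a z) z)) := by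
    refine In_mono hU ok.tp ok.ts t4 (t2.cmul hU 2) fun z hz => ?_
    have h1 := mul_le_mul_of_nonneg_left (lo z hz (Ch.XX σ W a z)) (m0 z hz)
    have e : nX σ W a z = ∑ i, Ch.XX σ W a z i ^ 2 := rfl
    rw [e]
    linarith
  have g2 : In U θ (fun z => m z * σ.F W z * a z ^ 2) ≤
      In U θ (fun z => m z * (σ.Γ a a z + σ.F W z * a z ^ 2)) := by
    refine In_mono hU ok.tp ok.ts t5 t1 fun z hz => ?_
    have h1 := mul_nonneg (m0 z hz) (l0 z hz fun i => σ.D i a z)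
    have e : ss σ (fun i => σ.D i a z) z = σ.Γ a a z := rfl
    rw [e] at h1
    linarith
  rw [In_cmul] at g1
  rw [f1]
  linarith

end integral

section zone

variable {σ τ : Sl E ι} {U : Set E} {θ : E → ℝ} {v₁ v₂ W m₁ m₂ o₁ o₂ χ : E → ℝ}

/-- The margin. -/
def mN (σ τ : Sl E ι) (W χ m₁ m₂ o₁ o₂ : E → ℝ) : Q8 E where
  κ z := χ z ^ 2
  ζ₁ z := 1 / 12 * m₁ z
  ζ₂ z := 1 / 12 * m₂ z
  ζy _ := 0
  w₁ z := 1 / 3 * (m₁ z * σ.F W z + zp σ W m₁ z) + o₁ z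
  w₂ z := 1 / 3 * (m₂ z * τ.F W z + zp τ W m₂ z) + o₂ z
  wb _ := 0
  wc _ := 0

/-- **The zone inequality from the normal ordered form.** -/
theorem zone_no (ok : σ.Ok U θ) (ot : τ.Ok U θ) (hv₁ : Sm U v₁) (hv₂ : Sm U v₂) (hW : Sm U W)
    (hχ : Sm U χ) (hm₁ : Sm U m₁) (hm₂ : Sm U m₂) (ho₁ : ContinuousOn o₁ U)
    (ho₂ : ContinuousOn o₂ U) (p₁ : ∀ z ∈ U, 0 ≤ m₁ z) (p₂ : ∀ z ∈ U, 0 ≤ m₂ z)
    (lo₁ : ∀ z ∈ U, ∀ A : ι → ℝ, ∑ i, A i ^ 2 ≤ 2 * ss σ A z)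
    (lo₂ : ∀ z ∈ U, ∀ A : ι → ℝ, ∑ i, A i ^ 2 ≤ 2 * ss τ A z)
    (nop : ∀ z ∈ U, ∀ (p q : ι → ℝ) (x y : ℝ),
      m₁ z * (ss σ p z + σ.F W z * x ^ 2) + m₂ z * (ss τ q z + τ.F W z * y ^ 2) +
        (o₁ z * x ^ 2 + o₂ z * y ^ 2) ≤
      χ z ^ 2 * nf σ τ v₁ v₂ W z p q x y +
        4 * (dr σ W (fun z => χ z ^ 2) z * x ^ 2 + dr τ W (fun z => χ z ^ 2) z * y ^ 2)) :
    Zone σ τ U θ v₁ v₂ W χ (mN σ τ W χ m₁ m₂ o₁ o₂) 0 := by
  intro a b ha hb
  have hU := ok.op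
  have ta := ha.sq hU
  have tb := hb.sq hU
  have hq : Sm U fun z => χ z ^ 2 := hχ.pow 2
  have E1 := energy3 ok hW ha hm₁ p₁ lo₁
  have E2 := energy3 ot hW hb hm₂ p₂ lo₂
  have S1 := sta_no ok ot hv₁ hv₂ hW ha hb hq
  have t0 : Te U fun z => χ z ^ 2 * sqd σ τ v₁ v₂ W a b z :=
    (tsqd ok ot hv₁ hv₂ hW ha hb).mul_left hU hq
  have t1 : Te U fun z => m₁ z * (σ.Γ a a z + σ.F W z * a z ^ 2) :=
    ((ok.tG ha.sm ha).add hU (ta.mul_left hU (ok.sF hW))).mul_left hU hm₁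
  have t2 : Te U fun z => m₂ z * (τ.Γ b b z + τ.F W z * b z ^ 2) :=
    ((ot.tG hb.sm hb).add hU (tb.mul_left hU (ot.sF hW))).mul_left hU hm₂
  have s1 : Sm U (zp σ W m₁) := (hm₁.mul (ok.sL hW)).add (ok.sG hm₁ hW)
  have s2 : Sm U (zp τ W m₂) := (hm₂.mul (ot.sL hW)).add (ot.sG hm₂ hW)
  have t3 : Te U fun z => 1 / 12 * m₁ z * nX σ W a z +
      1 / 3 * (m₁ z * σ.F W z + zp σ W m₁ z) * a z ^ 2 :=
    ((tnX ok hW ha).mul_left hU (contDiffOn_const.mul hm₁)).add hU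
      (ta.mul_left hU (contDiffOn_const.mul ((hm₁.mul (ok.sF hW)).add s1)))
  have t4 : Te U fun z => 1 / 12 * m₂ z * nX τ W b z +
      1 / 3 * (m₂ z * τ.F W z + zp τ W m₂ z) * b z ^ 2 :=
    ((tnX ot hW hb).mul_left hU (contDiffOn_const.mul hm₂)).add hU
      (tb.mul_left hU (contDiffOn_const.mul ((hm₂.mul (ot.sF hW)).add s2)))
  have t5 : Te U fun z => χ z ^ 2 * (n1 σ W a z + n1 τ W b z + mx σ τ v₁ v₂ W a b z) +
        4 * (dr σ W (fun z => χ z ^ 2) z * a z ^ 2 + dr τ W (fun z => χ z ^ 2) z * b z ^ 2) :=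
    ((((tn1 ok hW ha).add hU (tn1 ot hW hb)).add hU (tmx ok ot hv₁ hv₂ hW ha hb)).mul_left hU
      hq).add hU (((ta.mul_left hU (sdr ok hW hq)).add hU (tb.mul_left hU (sdr ot hW hq))).cmul
      hU 4)
  have t6 : Te U fun z => χ z ^ 2 * sta σ τ v₁ v₂ W a b z :=
    (tsta ok ot hv₁ hv₂ hW ha hb).mul_left hU hq
  have io : IntegrableOn (fun z => θ z * (o₁ z * a z ^ 2 + o₂ z * b z ^ 2)) U := by
    have := (ct_int hU ok.ts ho₁ ta).add (ct_int hU ok.ts ho₂ tb)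
    refine this.congr_fun (fun z _ => ?_) hU.measurableSet
    simp only [Pi.add_apply]
    ring
  -- the pointwise inequality
  have P : In U θ (fun z => m₁ z * (σ.Γ a a z + σ.F W z * a z ^ 2) +
      m₂ z * (τ.Γ b b z + τ.F W z * b z ^ 2)) + In U θ (fun z => o₁ z * a z ^ 2 + o₂ z * b z ^ 2) ≤
      In U θ (fun z => χ z ^ 2 * sta σ τ v₁ v₂ W a b z) := by
    rw [S1]
    have e : In U θ (fun z => m₁ z * (σ.Γ a a z + σ.F W z * a z ^ 2) +
      m₂ z * (τ.Γ b b z + τ.F W z * b z ^ 2)) + In U θ (fun z => o₁ z * a z ^ 2 + o₂ z * b z ^ 2) =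
      ∫ z in U, (θ z * (m₁ z * (σ.Γ a a z + σ.F W z * a z ^ 2) +
      m₂ z * (τ.Γ b b z + τ.F W z * b z ^ 2)) + θ z * (o₁ z * a z ^ 2 + o₂ z * b z ^ 2)) := by
      unfold In
      rw [← integral_add (te_int hU ok.ts (t1.add hU t2)) io]
    rw [e]
    unfold In
    refine setIntegral_mono_on ((te_int hU ok.ts (t1.add hU t2)).add io) (te_int hU ok.ts t5)
      hU.measurableSet fun z hz => ?_
    rw [← mul_add]
    refine mul_le_mul_of_nonneg_left ?_ (ok.tp z hz).le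
    have h := nop z hz (fun i => σ.D i a z) (fun i => τ.D i b z) (a z) (b z)
    have e1 : ss σ (fun i => σ.D i a z) z = σ.Γ a a z := rfl
    have e2 : ss τ (fun i => τ.D i b z) z = τ.Γ b b z := rfl
    beta_reduce
    rw [n1_nf ok hW ha.sm hz, n1_nf ot hW hb.sm hz, mx_mf ok ot hW ha.sm hb.sm hz]
    rw [e1, e2] at h
    exact h
  have d0 : In U θ ((0 : Q8 E).dens σ τ v₁ v₂ W a b) = 0 := by
    rw [← In_zero U θ]
    exact In_congr hU fun z _ => Q8.dens_zero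
  have dm : In U θ ((mN σ τ W χ m₁ m₂ o₁ o₂).dens σ τ v₁ v₂ W a b) =
      In U θ (fun z => χ z ^ 2 * sqd σ τ v₁ v₂ W a b z) +
      (In U θ (fun z => 1 / 12 * m₁ z * nX σ W a z +
        1 / 3 * (m₁ z * σ.F W z + zp σ W m₁ z) * a z ^ 2) +
      In U θ (fun z => 1 / 12 * m₂ z * nX τ W b z +
        1 / 3 * (m₂ z * τ.F W z + zp τ W m₂ z) * b z ^ 2)) +
      In U θ (fun z => o₁ z * a z ^ 2 + o₂ z * b z ^ 2) := by
    rw [← In_add hU ok.ts t3 t4, ← In_add hU ok.ts t0 (t3.add hU t4)]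
    unfold In
    rw [← integral_add (te_int hU ok.ts (t0.add hU (t3.add hU t4))) io]
    refine setIntegral_congr_fun hU.measurableSet fun z _ => ?_
    simp only [Q8.dens, mN]
    ring
  have dd : In U θ (fun z => χ z ^ 2 * dn σ τ v₁ v₂ W a b z) =
      In U θ (fun z => χ z ^ 2 * sqd σ τ v₁ v₂ W a b z) +
        In U θ (fun z => χ z ^ 2 * sta σ τ v₁ v₂ W a b z) := by
    rw [← In_add hU ok.ts t0 t6]
    refine In_congr hU fun z _ => ?_
    unfold dn; ring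
  rw [In_add hU ok.ts t1 t2] at P
  rw [d0, dm, dd]
  linarith

/-- Change of the margin and of the cost. -/
theorem Zone.of (ok : σ.Ok U θ) (ot : τ.Ok U θ) (hv₁ : Sm U v₁) (hv₂ : Sm U v₂) (hW : Sm U W)
    {mg co mg' co' : Q8 E} (cg : mg.Ct U) (cc : co.Ct U) (cg' : mg'.Ct U) (cc' : co'.Ct U)
    (h : Zone σ τ U θ v₁ v₂ W χ mg co)
    (le : ∀ z ∈ U, (mg' + co).Le (mg + co') z) : Zone σ τ U θ v₁ v₂ W χ mg' co' := by
  intro a b ha hb
  have i1 := Q8.int_dens ok ot hv₁ hv₂ hW ha hb cg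
  have i2 := Q8.int_dens ok ot hv₁ hv₂ hW ha hb cc
  have i3 := Q8.int_dens ok ot hv₁ hv₂ hW ha hb cg'
  have i4 := Q8.int_dens ok ot hv₁ hv₂ hW ha hb cc'
  have e : In U θ (mg'.dens σ τ v₁ v₂ W a b) + In U θ (co.dens σ τ v₁ v₂ W a b) ≤
      In U θ (mg.dens σ τ v₁ v₂ W a b) + In U θ (co'.dens σ τ v₁ v₂ W a b) := by
    unfold In
    rw [← integral_add i3 i2, ← integral_add i1 i4]
    refine setIntegral_mono_on (i3.add i2) (i1.add i4) ok.op.measurableSet fun z hz => ?_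
    rw [← mul_add, ← mul_add]
    refine mul_le_mul_of_nonneg_left ?_ (ok.tp z hz).le
    have := Q8.dens_le (σ := σ) (τ := τ) (v₁ := v₁) (v₂ := v₂) (W := W) (a := a) (b := b) (le z hz)
    rwa [Q8.dens_add, Q8.dens_add] at this
  have := h a b ha hb
  linarith

end zone

end Vale.Agent.P088.R2.H168.INF
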