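import Vale.Agent.P088.R2.H168.INF.No2

/-!
# P088, stage 3: the zone where the weight is separable and convex up to negligible terms

`Pn`: at a point the Hessians are at least `lam s`, `mu s'`, the mixed terms and the fourth order
terms are small. `zone_S`: the zone inequality with margins `χ² lam / 6` (for `|X a|²`) and
`χ² (lam F / 2 + 2 (lam Λ W + Γ(lam, W)) / 3 - 3 e)` (for `a²`), and a cost where `D χ ≠ 0`.
The margins `lam`, `mu` and the errors `e`, `r` of the two slots are functions and may be of very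
different sizes.
-/

open MeasureTheory Set Filter
open scoped ContDiff Topology

noncomputable section

namespace Vale.Agent.P088.R2.H168.INF

open Vale.Agent.P088.R2.H961.GW Vale.Agent.P088.R2.H960.W Vale.Agent.P088.R2.H644
open Vale.Agent.P088.R2.H551.E

variable {E ι κ : Type*} [NormedAddCommGroup E] [NormedSpace ℝ E] [Fintype ι] [Fintype κ]

/-- The hypotheses at a point. -/
structure Pn (σ : Sl E ι) (τ : Sl E κ) (v₁ v₂ W : E → ℝ) (lam mu e f : ℝ) (z : E) : Prop where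
  l0 : 0 ≤ lam
  m0 : 0 ≤ mu
  e0 : 0 ≤ e
  f0 : 0 ≤ f
  s1 : ∀ A : ι → ℝ, 0 ≤ ss σ A z
  s2 : ∀ B : κ → ℝ, 0 ≤ ss τ B z
  h1 : ∀ A : ι → ℝ, lam * ss σ A z ≤ HH σ W z A
  h2 : ∀ B : κ → ℝ, mu * ss τ B z ≤ HH τ W z B
  mm : ∀ (A : ι → ℝ) (B : κ → ℝ),
    16 * |MM σ τ W z A B| ≤ 1 / 2 * (lam * ss σ A z + mu * ss τ B z)
  g1 : ∀ (A : ι → ℝ) (y : ℝ), 8 * |y * gA σ (τ.Λ W) z A| ≤ 1 / 2 * (lam * ss σ A z) + f / 2 * y ^ 2
  g2 : ∀ (B : κ → ℝ) (x : ℝ), 8 * |x * gA τ (σ.Λ W) z B| ≤ 1 / 2 * (mu * ss τ B z) + e / 2 * x ^ 2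
  m2 : (16 * |M2 σ τ W W z| + 4 * |σ.Λ (τ.Λ W) z|) ^ 2 ≤ e * f
  o1 : 2 * |σ.Λ (σ.Λ W) z| ≤ e + 2 * HH σ W z (fun i => σ.D i W z)
  o2 : 2 * |τ.Λ (τ.Λ W) z| ≤ f + 2 * HH τ W z (fun i => τ.D i W z)
  p1 : 4 * |σ.Γ W v₁ z| ≤ e
  p2 : 4 * |τ.Γ W v₂ z| ≤ f

section pw

variable {σ : Sl E ι} {τ : Sl E κ} {U : Set E} {θ : E → ℝ} {v v₁ v₂ W f g h a b q m χ : E → ℝ}
  {z : E} {lam mu e r : ℝ}

/-- The bilinear form of `HH`. -/
def HB (σ : Sl E ι) (W : E → ℝ) (z : E) (A B : ι → ℝ) : ℝ := ∑ i, ∑ l, σ.Hc W i l z * A i * B l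

theorem HB_symm (ok : σ.Ok U θ) (A B : ι → ℝ) : HB σ W z A B = HB σ W z B A := by
  unfold HB
  rw [Finset.sum_comm]
  refine Finset.sum_congr rfl fun i _ => Finset.sum_congr rfl fun l _ => ?_
  rw [Hc_symm ok l i]; ring

theorem HH_add (ok : σ.Ok U θ) (A B : ι → ℝ) (s t : ℝ) :
    HH σ W z (fun i => s * A i + t * B i) =
      s ^ 2 * HH σ W z A + 2 * (s * t) * HB σ W z A B + t ^ 2 * HH σ W z B := by
  have e := HB_symm (W := W) (z := z) ok A B
  have e1 : 2 * (s * t) * HB σ W z A B = (s * t) * HB σ W z A B + (s * t) * HB σ W z B A := by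
    rw [← e]; ring
  rw [e1]
  unfold HH HB
  simp only [Finset.mul_sum, ← Finset.sum_add_distrib]
  exact Finset.sum_congr rfl fun i _ => Finset.sum_congr rfl fun j _ => by ring

theorem ss_xw (h : ∀ A : ι → ℝ, 0 ≤ ss σ A z) (p : ι → ℝ) (x : ℝ) :
    ss σ (xw σ W z p x) z ≤ 2 * (ss σ p z + σ.F W z * x ^ 2) := by
  have h1 := h fun i => x * σ.D i W z + p i
  have e : ss σ (xw σ W z p x) z + ss σ (fun i => x * σ.D i W z + p i) z =
      2 * (ss σ p z + σ.F W z * x ^ 2) := by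
    unfold ss xw Sl.F Sl.Γ
    simp only [Finset.mul_sum, Finset.sum_mul, ← Finset.sum_add_distrib]
    exact Finset.sum_congr rfl fun i _ => Finset.sum_congr rfl fun j _ => by ring
  linarith

theorem F_ss (σ : Sl E ι) (W : E → ℝ) (z : E) : σ.F W z = ss σ (fun i => σ.D i W z) z := rfl

/-- The lower bound of the normal ordered form. -/
theorem Pn.low (P : Pn σ τ v₁ v₂ W lam mu e r z) (p : ι → ℝ)
    (q : κ → ℝ) (x y : ℝ) :
    2 * (lam * (ss σ p z + σ.F W z * x ^ 2) + mu * (ss τ q z + τ.F W z * y ^ 2)) +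
      2 * (x ^ 2 * HH σ W z (fun i => σ.D i W z) + y ^ 2 * HH τ W z (fun i => τ.D i W z)) -
      3 * (e * x ^ 2 + r * y ^ 2) ≤ nf σ τ v₁ v₂ W z p q x y := by
  set A := xw σ W z p x with hA
  set B := xw τ W z q y with hB
  have l0 := P.l0
  have m0 := P.m0
  have e0 := P.e0
  have sA : ss σ A z ≤ 2 * (ss σ p z + σ.F W z * x ^ 2) := ss_xw P.s1 p x
  have sB : ss τ B z ≤ 2 * (ss τ q z + τ.F W z * y ^ 2) := ss_xw P.s2 q y
  have mm := P.mm A B
  have g1 := P.g1 A y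
  have g2 := P.g2 B x
  have k1 := neg_abs_le (MM σ τ W z A B)
  have k2 := le_abs_self (y * gA σ (τ.Λ W) z A)
  have k3 := le_abs_self (x * gA τ (σ.Λ W) z B)
  have hp := P.h1 p
  have hq := P.h2 q
  have hw := P.h1 fun i => σ.D i W z
  have hw' := P.h2 fun i => τ.D i W z
  rw [← F_ss] at hw hw'
  have x0 := sq_nonneg x
  have y0 := sq_nonneg y
  have hwx := mul_le_mul_of_nonneg_right hw x0
  have hwy := mul_le_mul_of_nonneg_right hw' y0
  have lA := mul_le_mul_of_nonneg_left sA l0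
  have lB := mul_le_mul_of_nonneg_left sB m0
  have r0 := P.f0
  have m2 : |-(16 * (M2 σ τ W W z * (x * y))) + 4 * (σ.Λ (τ.Λ W) z * (x * y))| ≤
      1 / 2 * (e * x ^ 2 + r * y ^ 2) := by
    have : |-(16 * (M2 σ τ W W z * (x * y))) + 4 * (σ.Λ (τ.Λ W) z * (x * y))| ≤
        (16 * |M2 σ τ W W z| + 4 * |σ.Λ (τ.Λ W) z|) * |x * y| := by
      refine (abs_add_le _ _).trans ?_
      rw [abs_neg, abs_mul, abs_mul, abs_mul (4 : ℝ), abs_mul (σ.Λ (τ.Λ W) z),
        abs_of_pos (by norm_num : (0:ℝ) < 16), abs_of_pos (by norm_num : (0:ℝ) < 4)]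
      exact le_of_eq (by ring)
    refine this.trans (abs_le_of_sq_le_sq' ?_ (by positivity)).2
    have h1 : ((16 * |M2 σ τ W W z| + 4 * |σ.Λ (τ.Λ W) z|) * |x * y|) ^ 2 ≤
        e * r * (x * y) ^ 2 := by
      rw [mul_pow, sq_abs]
      exact mul_le_mul_of_nonneg_right P.m2 (sq_nonneg _)
    nlinarith [sq_nonneg (e * x ^ 2 - r * y ^ 2)]
  have m2' := neg_abs_le (-(16 * (M2 σ τ W W z * (x * y))) + 4 * (σ.Λ (τ.Λ W) z * (x * y)))
  have o1 : 2 * (σ.Λ (σ.Λ W) z * x ^ 2) ≤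
      (e + 2 * HH σ W z (fun i => σ.D i W z)) * x ^ 2 := by
    have := mul_le_mul_of_nonneg_right P.o1 x0
    have h2 := mul_le_mul_of_nonneg_right (le_abs_self (σ.Λ (σ.Λ W) z)) x0
    linarith
  have o2 : 2 * (τ.Λ (τ.Λ W) z * y ^ 2) ≤
      (r + 2 * HH τ W z (fun i => τ.D i W z)) * y ^ 2 := by
    have := mul_le_mul_of_nonneg_right P.o2 y0
    have h2 := mul_le_mul_of_nonneg_right (le_abs_self (τ.Λ (τ.Λ W) z)) y0
    linarith
  have p1 : -(e * x ^ 2) ≤ 4 * (σ.Γ W v₁ z * x ^ 2) := by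
    have := mul_le_mul_of_nonneg_right P.p1 x0
    have h2 := mul_le_mul_of_nonneg_right (neg_abs_le (σ.Γ W v₁ z)) x0
    linarith
  have p2 : -(r * y ^ 2) ≤ 4 * (τ.Γ W v₂ z * y ^ 2) := by
    have := mul_le_mul_of_nonneg_right P.p2 y0
    have h2 := mul_le_mul_of_nonneg_right (neg_abs_le (τ.Γ W v₂ z)) y0
    linarith
  have n1 := mul_nonneg l0 (P.s1 p)
  have n2 := mul_nonneg m0 (P.s2 q)
  unfold nf nf1 mf
  rw [← hA, ← hB]
  linarith

end pw

/-- `3 lam Γ(χ, χ) + 32 H(D χ, D χ) + 8 |χ Γ(χ, Λ W)|`. -/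
def cw (σ : Sl E ι) (W χ lam : E → ℝ) (z : E) : ℝ :=
  3 * lam z * σ.Γ χ χ z + 32 * HH σ W z (fun i => σ.D i χ z) + 8 * |χ z * σ.Γ χ (σ.Λ W) z|

section pw2

variable {σ : Sl E ι} {τ : Sl E κ} {U : Set E} {θ : E → ℝ} {v v₁ v₂ W f g h a b q m χ : E → ℝ}
  {z : E} {lam mu e : ℝ}

/-- The drift of `χ²`. -/
theorem dr_low (ok : σ.Ok U θ) (hW : Sm U W) (hχ : Sm U χ) (hz : z ∈ U)
    (h : ∀ A : ι → ℝ, 0 ≤ HH σ W z A) :
    -(2 * (χ z ^ 2 * HH σ W z (fun i => σ.D i W z)) + 32 * HH σ W z (fun i => σ.D i χ z) +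
      8 * |χ z * σ.Γ χ (σ.Λ W) z|) ≤ 4 * dr σ W (fun z => χ z ^ 2) z := by
  have sF := ok.sF hW
  have sL := ok.sL hW
  have e1 : dr σ W (fun z => χ z ^ 2) z =
      2 * χ z * σ.Γ χ (σ.F W) z - 2 * χ z * σ.Γ χ (σ.Λ W) z := by
    unfold dr
    rw [G_comm ok, G_sq ok _ hχ hz, G_comm ok _ χ, G_sub ok χ sF sL hz]
    ring
  have e2 : σ.Γ χ (σ.F W) z = 2 * HB σ W z (fun i => σ.D i χ z) (fun i => σ.D i W z) := by
    have h1 := Hs_W (W := W) ok χ z
    rw [Hs_eq ok hW hχ hW hz] at h1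
    unfold HB
    linarith
  have e3 := h fun i => χ z * σ.D i W z + 4 * σ.D i χ z
  rw [HH_add ok, HB_symm ok] at e3
  have e4 := neg_abs_le (χ z * σ.Γ χ (σ.Λ W) z)
  have e5 := le_abs_self (χ z * σ.Γ χ (σ.Λ W) z)
  rw [e1, e2]
  linarith

end pw2

variable [MeasureSpace E] [FiniteDimensional ℝ E] [BorelSpace E]
  [(volume : Measure E).IsAddHaarMeasure]

section zone

variable {σ τ : Sl E ι} {U S : Set E} {θ : E → ℝ} {v₁ v₂ W m₁ m₂ o₁ o₂ χ lam mu e r : E → ℝ}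

/-- The margin of the zone `S`. -/
def mS (σ τ : Sl E ι) (W χ lam mu e r : E → ℝ) : Q8 E where
  κ z := χ z ^ 2
  ζ₁ z := χ z ^ 2 * (lam z / 6)
  ζ₂ z := χ z ^ 2 * (mu z / 6)
  ζy _ := 0
  w₁ z := χ z ^ 2 * (lam z * σ.F W z / 2 + 2 / 3 * (lam z * σ.Λ W z + σ.Γ lam W z) - 3 * e z)
  w₂ z := χ z ^ 2 * (mu z * τ.F W z / 2 + 2 / 3 * (mu z * τ.Λ W z + τ.Γ mu W z) - 3 * r z)
  wb _ := 0
  wc _ := 0

/-- The cost of the zone `S`. -/
def cS (σ τ : Sl E ι) (W χ lam mu : E → ℝ) : Q8 E where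
  κ _ := 0
  ζ₁ _ := 0
  ζ₂ _ := 0
  ζy _ := 0
  w₁ z := cw σ W χ lam z
  w₂ z := cw τ W χ mu z
  wb _ := 0
  wc _ := 0

theorem D_off (σ : Sl E ι) (hS : IsClosed S) (h0 : ∀ z, z ∉ S → χ z = 0) {z : E} (hz : z ∉ S)
    (i : ι) : σ.D i χ z = 0 := by
  have h : χ =ᶠ[𝓝 z] fun _ => (0 : ℝ) := by
    filter_upwards [hS.isOpen_compl.mem_nhds hz] with w hw using h0 w hw
  rw [D_congr_nhds σ h i, D_const]

theorem G_off (σ : Sl E ι) (hS : IsClosed S) (h0 : ∀ z, z ∉ S → χ z = 0) {z : E} (hz : z ∉ S)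
    (f : E → ℝ) : σ.Γ χ f z = 0 := by
  unfold Sl.Γ
  exact Finset.sum_eq_zero fun i _ => Finset.sum_eq_zero fun j _ => by
    rw [D_off σ hS h0 hz]; ring

theorem sHH (ok : σ.Ok U θ) (hW : Sm U W) (hχ : Sm U χ) :
    Sm U fun z => HH σ W z (fun i => σ.D i χ z) := by
  have h : Sm U (σ.Hs W χ χ) := by
    unfold Sl.Hs
    exact contDiffOn_const.mul (((ok.sG hχ (ok.sG hW hχ)).add (ok.sG hχ (ok.sG hW hχ))).sub
      (ok.sG hW (ok.sG hχ hχ)))
  exact h.congr fun z hz => (Hs_eq ok hW hχ hχ hz).symm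

/-- **The zone inequality for convex weights separable up to negligible terms.** -/
theorem zone_S (ok : σ.Ok U θ) (ot : τ.Ok U θ) (hv₁ : Sm U v₁) (hv₂ : Sm U v₂) (hW : Sm U W)
    (hχ : Sm U χ) (hS : IsClosed S) (h0 : ∀ z, z ∉ S → χ z = 0)
    (lo₁ : ∀ z ∈ U, ∀ A : ι → ℝ, ∑ i, A i ^ 2 ≤ 2 * ss σ A z)
    (lo₂ : ∀ z ∈ U, ∀ A : ι → ℝ, ∑ i, A i ^ 2 ≤ 2 * ss τ A z) (sl : Sm U lam) (sm : Sm U mu)
    (l0 : ∀ z ∈ U, 0 ≤ lam z) (m0 : ∀ z ∈ U, 0 ≤ mu z) (ce : ContinuousOn e U)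
    (cr : ContinuousOn r U)
    (pt : ∀ z ∈ U, z ∈ S → Pn σ τ v₁ v₂ W (lam z) (mu z) (e z) (r z) z) :
    Zone σ τ U θ v₁ v₂ W χ (mS σ τ W χ lam mu e r) (cS σ τ W χ lam mu) := by
  have hU := ok.op
  have sF1 := ok.sF hW
  have sF2 := ot.sF hW
  have hq : Sm U fun z => χ z ^ 2 := hχ.pow 2
  have sH1 := sHH ok hW hχ
  have sH2 := sHH ot hW hχ
  have c1 : ContinuousOn (cw σ W χ lam) U :=
    (((contDiffOn_const.mul sl).mul (ok.sG hχ hχ)).continuousOn.add
      (contDiffOn_const.mul sH1).continuousOn).add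
      (continuousOn_const.mul (hχ.mul (ok.sG hχ (ok.sL hW))).continuousOn.abs)
  have c2 : ContinuousOn (cw τ W χ mu) U :=
    (((contDiffOn_const.mul sm).mul (ot.sG hχ hχ)).continuousOn.add
      (contDiffOn_const.mul sH2).continuousOn).add
      (continuousOn_const.mul (hχ.mul (ot.sG hχ (ot.sL hW))).continuousOn.abs)
  set m₁ : E → ℝ := fun z => χ z ^ 2 * (2 * lam z) with hm₁
  have sm₁ : Sm U m₁ := hq.mul (contDiffOn_const.mul sl)
  set m₂ : E → ℝ := fun z => χ z ^ 2 * (2 * mu z) with hm₂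
  have sm₂ : Sm U m₂ := hq.mul (contDiffOn_const.mul sm)
  set o₁ : E → ℝ := fun z => -(χ z ^ 2 * (3 * e z)) - 32 * HH σ W z (fun i => σ.D i χ z) -
    8 * |χ z * σ.Γ χ (σ.Λ W) z| with ho₁
  set o₂ : E → ℝ := fun z => -(χ z ^ 2 * (3 * r z)) - 32 * HH τ W z (fun i => τ.D i χ z) -
    8 * |χ z * τ.Γ χ (τ.Λ W) z| with ho₂
  have co₁ : ContinuousOn o₁ U :=
    (((hq.continuousOn.mul (continuousOn_const.mul ce)).neg).sub (contDiffOn_const.mul sH1).continuousOn).sub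
      (continuousOn_const.mul (hχ.mul (ok.sG hχ (ok.sL hW))).continuousOn.abs)
  have co₂ : ContinuousOn o₂ U :=
    (((hq.continuousOn.mul (continuousOn_const.mul cr)).neg).sub (contDiffOn_const.mul sH2).continuousOn).sub
      (continuousOn_const.mul (hχ.mul (ot.sG hχ (ot.sL hW))).continuousOn.abs)
  have Z := zone_no (χ := χ) (m₁ := m₁) (m₂ := m₂) (o₁ := o₁) (o₂ := o₂) ok ot hv₁ hv₂ hW hχ sm₁
    sm₂ co₁ co₂ (fun z hz => mul_nonneg (sq_nonneg _) (mul_nonneg zero_le_two (l0 z hz)))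
    (fun z hz => mul_nonneg (sq_nonneg _) (mul_nonneg zero_le_two (m0 z hz))) lo₁ lo₂ (by
      intro z hz p q x y
      by_cases hs : z ∈ S
      · have P := pt z hz hs
        have A := P.low p q x y
        have x0 := sq_nonneg x
        have y0 := sq_nonneg y
        have c0 := sq_nonneg (χ z)
        have d1 := dr_low (χ := χ) ok hW hχ hz fun A =>
          (mul_nonneg P.l0 (P.s1 A)).trans (P.h1 A)
        have d2 := dr_low (χ := χ) ot hW hχ hz fun A =>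
          (mul_nonneg P.m0 (P.s2 A)).trans (P.h2 A)
        have d1' := mul_le_mul_of_nonneg_right d1 x0
        have d2' := mul_le_mul_of_nonneg_right d2 y0
        have A' := mul_le_mul_of_nonneg_left A c0
        simp only [hm₁, hm₂, ho₁, ho₂]
        linarith
      · have z0 := h0 z hs
        have k1 : dr σ W (fun z => χ z ^ 2) z = 0 := by
          have h1 : ∀ z, z ∉ S → χ z ^ 2 = 0 := fun z hz => by rw [h0 z hz]; ring
          exact G_off σ hS h1 hs _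
        have k2 : dr τ W (fun z => χ z ^ 2) z = 0 := by
          have h1 : ∀ z, z ∉ S → χ z ^ 2 = 0 := fun z hz => by rw [h0 z hz]; ring
          exact G_off τ hS h1 hs _
        have k3 : HH σ W z (fun i => σ.D i χ z) = 0 := by
          unfold HH
          exact Finset.sum_eq_zero fun i _ => Finset.sum_eq_zero fun j _ => by
            beta_reduce
            rw [D_off σ hS h0 hs]; ring
        have k4 : HH τ W z (fun i => τ.D i χ z) = 0 := by
          unfold HH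
          exact Finset.sum_eq_zero fun i _ => Finset.sum_eq_zero fun j _ => by
            beta_reduce
            rw [D_off τ hS h0 hs]; ring
        simp only [hm₁, hm₂, ho₁, ho₂]
        rw [k1, k2, k3, k4, z0]
        simp)
  refine Zone.of (mg := mN σ τ W χ m₁ m₂ o₁ o₂) (co := 0) ok ot hv₁ hv₂ hW ?_ ?_ ?_ ?_ Z ?_
  · have s1 : Sm U (zp σ W m₁) := (sm₁.mul (ok.sL hW)).add (ok.sG sm₁ hW)
    have s2 : Sm U (zp τ W m₂) := (sm₂.mul (ot.sL hW)).add (ot.sG sm₂ hW)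
    exact ⟨hq.continuousOn, (contDiffOn_const.mul sm₁).continuousOn,
      (contDiffOn_const.mul sm₂).continuousOn, continuousOn_const,
      (contDiffOn_const.mul ((sm₁.mul sF1).add s1)).continuousOn.add co₁,
      (contDiffOn_const.mul ((sm₂.mul sF2).add s2)).continuousOn.add co₂,
      continuousOn_const, continuousOn_const⟩
  · exact ⟨continuousOn_const, continuousOn_const, continuousOn_const, continuousOn_const,
      continuousOn_const, continuousOn_const, continuousOn_const, continuousOn_const⟩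
  · exact ⟨hq.continuousOn, (hq.mul (sl.div_const 6)).continuousOn,
      (hq.mul (sm.div_const 6)).continuousOn, continuousOn_const,
      hq.continuousOn.mul ((((sl.mul sF1).div_const 2).add (contDiffOn_const.mul
        ((sl.mul (ok.sL hW)).add (ok.sG sl hW)))).continuousOn.sub (continuousOn_const.mul ce)),
      hq.continuousOn.mul ((((sm.mul sF2).div_const 2).add (contDiffOn_const.mul
        ((sm.mul (ot.sL hW)).add (ot.sG sm hW)))).continuousOn.sub (continuousOn_const.mul cr)),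
      continuousOn_const, continuousOn_const⟩
  · exact ⟨continuousOn_const, continuousOn_const, continuousOn_const, continuousOn_const,
      c1, c2, continuousOn_const, continuousOn_const⟩
  · intro z hz
    have key : ∀ (ρ : Sl E ι) (la e : E → ℝ), ρ.Ok U θ → Sm U la → 0 ≤ la z →
        (∀ A : ι → ℝ, ∑ i, A i ^ 2 ≤ 2 * ss ρ A z) →
        χ z ^ 2 * (la z * ρ.F W z / 2 + 2 / 3 * (la z * ρ.Λ W z + ρ.Γ la W z) - 3 * e z) ≤
        (1 / 3 * (χ z ^ 2 * (2 * la z) * ρ.F W z + zp ρ W (fun z => χ z ^ 2 * (2 * la z)) z) +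
          (-(χ z ^ 2 * (3 * e z)) -
          32 * HH ρ W z (fun i => ρ.D i χ z) - 8 * |χ z * ρ.Γ χ (ρ.Λ W) z|)) + cw ρ W χ la z := by
      intro ρ la e or sla l0 lo
      have e1 : ρ.Γ (fun z => χ z ^ 2 * (2 * la z)) W z =
          4 * la z * χ z * ρ.Γ χ W z + 2 * χ z ^ 2 * ρ.Γ la W z := by
        rw [G_comm or, G_mul or W hq (contDiffOn_const.mul sla) hz, G_sq or W hχ hz, G_comm or W χ,
          G_cmul or W 2 sla hz, G_comm or W la]
        ring
      have e2 : 0 ≤ ss ρ (fun i => χ z * ρ.D i W z + 4 * ρ.D i χ z) z := by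
        have h1 := lo fun i => χ z * ρ.D i W z + 4 * ρ.D i χ z
        have h2 : 0 ≤ ∑ i, (χ z * ρ.D i W z + 4 * ρ.D i χ z) ^ 2 :=
          Finset.sum_nonneg fun i _ => sq_nonneg _
        linarith
      have e3 : ss ρ (fun i => χ z * ρ.D i W z + 4 * ρ.D i χ z) z =
          χ z ^ 2 * ρ.F W z + 8 * (χ z * ρ.Γ χ W z) + 16 * ρ.Γ χ χ z := by
        have e : 8 * (χ z * ρ.Γ χ W z) = 4 * (χ z * ρ.Γ χ W z) + 4 * (χ z * ρ.Γ W χ z) := by
          rw [G_comm or W χ]; ring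
        rw [e]
        unfold ss Sl.F Sl.Γ
        simp only [Finset.mul_sum, ← Finset.sum_add_distrib]
        exact Finset.sum_congr rfl fun i _ => Finset.sum_congr rfl fun j _ => by ring
      rw [e3] at e2
      have e4 := mul_nonneg l0 e2
      have e5 : 0 ≤ ρ.Γ χ χ z := by
        have h1 := lo fun i => ρ.D i χ z
        have h2 : 0 ≤ ∑ i, (ρ.D i χ z) ^ 2 := Finset.sum_nonneg fun i _ => sq_nonneg _
        have h3 : ss ρ (fun i => ρ.D i χ z) z = ρ.Γ χ χ z := rfl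
        linarith
      have e6 := mul_nonneg l0 e5
      unfold zp cw
      rw [e1]
      linarith
    have K1 := key σ lam e ok sl (l0 z hz) (lo₁ z hz)
    have K2 := key τ mu r ot sm (m0 z hz) (lo₂ z hz)
    constructor <;> simp only [Q8.add_def, mN, mS, cS, Pi.add_apply]
    · have : (0 : Q8 E).κ z = 0 := rfl
      linarith
    · have : (0 : Q8 E).ζ₁ z = 0 := rfl
      simp only [hm₁]
      linarith
    · have : (0 : Q8 E).ζ₂ z = 0 := rfl
      simp only [hm₂]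
      linarith
    · have : (0 : Q8 E).ζy z = 0 := rfl
      linarith
    · have : (0 : Q8 E).w₁ z = 0 := rfl
      simp only [ho₁, hm₁]
      linarith
    · have : (0 : Q8 E).w₂ z = 0 := rfl
      simp only [ho₂, hm₂]
      linarith
    · have : (0 : Q8 E).wb z = 0 := rfl
      linarith
    · have : (0 : Q8 E).wc z = 0 := rfl
      linarith

end zone

end Vale.Agent.P088.R2.H168.INF
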