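import Vale.Agent.P088.R2.H168.INF.No2
import Vale.Agent.P088.R2.H747.S.Sem

/-!
# P088, stage 3: the star form of a zone with separate margins of the two slots

If `8 TH + qf ≥ 4 (lam s(A, A) + mu s'(B, B)) - e x² - r y²` at every point of `S`, then the zone
inequality holds with the margins `χ² lam` and `χ² (lam F + 2 (lam Λ W + Γ(lam, W)) - e)` and the
cost `4 lam Γ(χ, χ)`.
-/

open MeasureTheory Set Filter
open scoped ContDiff Topology

noncomputable section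

namespace Vale.Agent.P088.R2.H168.INF

open Vale.Agent.P088.R2.H961.GW Vale.Agent.P088.R2.H960.W Vale.Agent.P088.R2.H644
open Vale.Agent.P088.R2.H551.E

variable {E ι κ : Type*} [NormedAddCommGroup E] [NormedSpace ℝ E] [Fintype ι] [Fintype κ]

/-- The margin. -/
def mT (σ τ : Sl E ι) (W χ lam mu e r : E → ℝ) : Q8 E where
  κ z := χ z ^ 2
  ζ₁ z := χ z ^ 2 * lam z
  ζ₂ z := χ z ^ 2 * mu z
  ζy _ := 0
  w₁ z := χ z ^ 2 * (lam z * σ.F W z + 2 * (lam z * σ.Λ W z + σ.Γ lam W z) - e z)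
  w₂ z := χ z ^ 2 * (mu z * τ.F W z + 2 * (mu z * τ.Λ W z + τ.Γ mu W z) - r z)
  wb _ := 0
  wc _ := 0

/-- The cost. -/
def cT (σ τ : Sl E ι) (χ lam mu : E → ℝ) : Q8 E where
  κ _ := 0
  ζ₁ _ := 0
  ζ₂ _ := 0
  ζy _ := 0
  w₁ z := 4 * lam z * σ.Γ χ χ z
  w₂ z := 4 * mu z * τ.Γ χ χ z
  wb _ := 0
  wc _ := 0

variable [MeasureSpace E] [FiniteDimensional ℝ E] [BorelSpace E]
  [(volume : Measure E).IsAddHaarMeasure]

section zone

variable {σ τ : Sl E ι} {U S : Set E} {θ : E → ℝ} {v₁ v₂ W χ lam mu e r a b : E → ℝ}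

/-- The energy of one slot with the cut-off. -/
theorem energyT (ok : σ.Ok U θ) (hW : Sm U W) (hχ : Sm U χ) (sl : Sm U lam) (ha : Te U a)
    (l0 : ∀ z ∈ U, 0 ≤ lam z) (lo : ∀ z ∈ U, ∀ A : ι → ℝ, ∑ i, A i ^ 2 ≤ 2 * ss σ A z) :
    In U θ (fun z => χ z ^ 2 * lam z * nX σ W a z +
        (χ z ^ 2 * (lam z * σ.F W z + 2 * (lam z * σ.Λ W z + σ.Γ lam W z)) -
          4 * lam z * σ.Γ χ χ z) * a z ^ 2) ≤
      In U θ (fun z => 4 * (χ z ^ 2 * lam z * ss σ (Ch.XX σ W a z) z)) := by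
  have hU := ok.op
  have ta := ha.sq hU
  have hq : Sm U fun z => χ z ^ 2 := hχ.pow 2
  set m : E → ℝ := fun z => χ z ^ 2 * lam z with hm
  have sm : Sm U m := hq.mul sl
  have m0 : ∀ z ∈ U, 0 ≤ m z := fun z hz => mul_nonneg (sq_nonneg _) (l0 z hz)
  have s0 : ∀ z ∈ U, ∀ A : ι → ℝ, 0 ≤ ss σ A z := fun z hz A => by
    have h1 := lo z hz A
    have h2 : 0 ≤ ∑ i, A i ^ 2 := Finset.sum_nonneg fun i _ => sq_nonneg _
    linarith
  obtain ⟨e1, -⟩ := energy ok hW ha sm m0 s0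
  have sz : Sm U (zp σ W m) := (sm.mul (ok.sL hW)).add (ok.sG sm hW)
  have t1 : Te U fun z => m z * (σ.Γ a a z + σ.F W z * a z ^ 2) :=
    ((ok.tG ha.sm ha).add hU (ta.mul_left hU (ok.sF hW))).mul_left hU sm
  have t2 : Te U fun z => m z * ss σ (Ch.XX σ W a z) z :=
    (tss ok fun i => tX ok hW ha i).mul_left hU sm
  have t3 : Te U fun z => zp σ W m z * a z ^ 2 := ta.mul_left hU sz
  have t4 : Te U fun z => m z * nX σ W a z := (tnX ok hW ha).mul_left hU sm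
  have sL : Sm U fun z => χ z ^ 2 * (lam z * σ.F W z + 2 * (lam z * σ.Λ W z + σ.Γ lam W z)) -
      4 * lam z * σ.Γ χ χ z :=
    (hq.mul ((sl.mul (ok.sF hW)).add (contDiffOn_const.mul
      ((sl.mul (ok.sL hW)).add (ok.sG sl hW))))).sub ((contDiffOn_const.mul sl).mul (ok.sG hχ hχ))
  have t5 : Te U fun z => χ z ^ 2 * lam z * nX σ W a z +
        (χ z ^ 2 * (lam z * σ.F W z + 2 * (lam z * σ.Λ W z + σ.Γ lam W z)) -
          4 * lam z * σ.Γ χ χ z) * a z ^ 2 := t4.add hU (ta.mul_left hU sL)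
  have t6 : Te U fun z => 2 * (m z * ss σ (Ch.XX σ W a z) z) +
      (2 * (m z * (σ.Γ a a z + σ.F W z * a z ^ 2)) + 2 * (zp σ W m z * a z ^ 2)) :=
    (t2.cmul hU 2).add hU ((t1.cmul hU 2).add hU (t3.cmul hU 2))
  have k1 : In U θ (fun z => 4 * (χ z ^ 2 * lam z * ss σ (Ch.XX σ W a z) z)) =
      In U θ (fun z => 2 * (m z * ss σ (Ch.XX σ W a z) z) +
      (2 * (m z * (σ.Γ a a z + σ.F W z * a z ^ 2)) + 2 * (zp σ W m z * a z ^ 2))) := by
    have : In U θ (fun z => 4 * (χ z ^ 2 * lam z * ss σ (Ch.XX σ W a z) z)) =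
        4 * In U θ (fun z => m z * ss σ (Ch.XX σ W a z) z) := In_cmul _ _ _ _
    have k2 := In_cmul U θ 2 fun z => m z * ss σ (Ch.XX σ W a z) z
    have k3 := In_cmul U θ 2 fun z => m z * (σ.Γ a a z + σ.F W z * a z ^ 2)
    have k4 := In_cmul U θ 2 fun z => zp σ W m z * a z ^ 2
    rw [In_add hU ok.ts (t2.cmul hU 2) ((t1.cmul hU 2).add hU (t3.cmul hU 2)),
      In_add hU ok.ts (t1.cmul hU 2) (t3.cmul hU 2), this, k2, k3, k4]
    linarith
  rw [k1]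
  refine In_mono hU ok.tp ok.ts t5 t6 fun z hz => ?_
  have h1 := mul_le_mul_of_nonneg_left (lo z hz (Ch.XX σ W a z)) (m0 z hz)
  have e : nX σ W a z = ∑ i, Ch.XX σ W a z i ^ 2 := rfl
  have h2 := mul_nonneg (m0 z hz) (s0 z hz fun i => σ.D i a z)
  have e' : ss σ (fun i => σ.D i a z) z = σ.Γ a a z := rfl
  rw [e'] at h2
  have h3 := s0 z hz fun i => χ z * σ.D i W z + 2 * σ.D i χ z
  have e3 : ss σ (fun i => χ z * σ.D i W z + 2 * σ.D i χ z) z =
      χ z ^ 2 * σ.F W z + 4 * (χ z * σ.Γ χ W z) + 4 * σ.Γ χ χ z := by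
    have e : 4 * (χ z * σ.Γ χ W z) = 2 * (χ z * σ.Γ χ W z) + 2 * (χ z * σ.Γ W χ z) := by
      rw [G_comm ok W χ]; ring
    rw [e]
    unfold ss Sl.F Sl.Γ
    simp only [Finset.mul_sum, ← Finset.sum_add_distrib]
    exact Finset.sum_congr rfl fun i _ => Finset.sum_congr rfl fun j _ => by ring
  rw [e3] at h3
  have h4 := mul_nonneg (mul_nonneg (l0 z hz) h3) (sq_nonneg (a z))
  have e4 : zp σ W m z = χ z ^ 2 * (lam z * σ.Λ W z + σ.Γ lam W z) +
      2 * (lam z * (χ z * σ.Γ χ W z)) := by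
    unfold zp
    rw [hm, G_comm ok, G_mul ok W hq sl hz, G_sq ok W hχ hz, G_comm ok W χ, G_comm ok W lam]
    ring
  rw [e4]
  have k : m z = χ z ^ 2 * lam z := rfl
  rw [k] at h1 h2 ⊢
  rw [← e] at h1
  nlinarith

/-- **The zone inequality from the star form.** -/
theorem zone_T (ok : σ.Ok U θ) (ot : τ.Ok U θ) (hv₁ : Sm U v₁) (hv₂ : Sm U v₂) (hW : Sm U W)
    (hχ : Sm U χ) (h0 : ∀ z, z ∉ S → χ z = 0)
    (lo₁ : ∀ z ∈ U, ∀ A : ι → ℝ, ∑ i, A i ^ 2 ≤ 2 * ss σ A z)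
    (lo₂ : ∀ z ∈ U, ∀ A : ι → ℝ, ∑ i, A i ^ 2 ≤ 2 * ss τ A z) (sl : Sm U lam) (sm : Sm U mu)
    (l0 : ∀ z ∈ U, 0 ≤ lam z) (m0 : ∀ z ∈ U, 0 ≤ mu z) (ce : ContinuousOn e U)
    (cr : ContinuousOn r U)
    (pt : ∀ z ∈ U, z ∈ S → ∀ (A B : ι → ℝ) (x y : ℝ),
      4 * (lam z * ss σ A z + mu z * ss τ B z) - (e z * x ^ 2 + r z * y ^ 2) ≤
        8 * Ch.TH σ τ W z A B + H747.S.qf σ τ v₁ v₂ W z A B x y) :
    Zone σ τ U θ v₁ v₂ W χ (mT σ τ W χ lam mu e r) (cT σ τ χ lam mu) := by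
  intro a b ha hb
  have hU := ok.op
  have ta := ha.sq hU
  have tb := hb.sq hU
  have hq : Sm U fun z => χ z ^ 2 := hχ.pow 2
  have E1 := energyT ok hW hχ sl ha l0 lo₁
  have E2 := energyT ot hW hχ sm hb m0 lo₂
  set X1 : E → ℝ := fun z => χ z ^ 2 * lam z * nX σ W a z +
        (χ z ^ 2 * (lam z * σ.F W z + 2 * (lam z * σ.Λ W z + σ.Γ lam W z)) -
          4 * lam z * σ.Γ χ χ z) * a z ^ 2 with hX1
  set X2 : E → ℝ := fun z => χ z ^ 2 * mu z * nX τ W b z +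
        (χ z ^ 2 * (mu z * τ.F W z + 2 * (mu z * τ.Λ W z + τ.Γ mu W z)) -
          4 * mu z * τ.Γ χ χ z) * b z ^ 2 with hX2
  have sXX : ∀ (ρ : Sl E ι) (la c : E → ℝ), ρ.Ok U θ → Sm U la → Te U c →
      Te U fun z => χ z ^ 2 * la z * nX ρ W c z +
        (χ z ^ 2 * (la z * ρ.F W z + 2 * (la z * ρ.Λ W z + ρ.Γ la W z)) -
          4 * la z * ρ.Γ χ χ z) * c z ^ 2 := by
    intro ρ la c or sla tc
    have sL : Sm U fun z => χ z ^ 2 * (la z * ρ.F W z + 2 * (la z * ρ.Λ W z + ρ.Γ la W z)) -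
        4 * la z * ρ.Γ χ χ z :=
      (hq.mul ((sla.mul (or.sF hW)).add (contDiffOn_const.mul
        ((sla.mul (or.sL hW)).add (or.sG sla hW))))).sub
          ((contDiffOn_const.mul sla).mul (or.sG hχ hχ))
    exact ((tnX or hW tc).mul_left hU (hq.mul sla)).add hU ((tc.sq hU).mul_left hU sL)
  have tX1 : Te U X1 := sXX σ lam a ok sl ha
  have tX2 : Te U X2 := sXX τ mu b ot sm hb
  have tY1 : Te U fun z => 4 * (χ z ^ 2 * lam z * ss σ (Ch.XX σ W a z) z) :=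
    ((tss ok fun i => tX ok hW ha i).mul_left hU (hq.mul sl)).cmul hU 4
  have tY2 : Te U fun z => 4 * (χ z ^ 2 * mu z * ss τ (Ch.XX τ W b z) z) :=
    ((tss ot fun i => tX ot hW hb i).mul_left hU (hq.mul sm)).cmul hU 4
  have io : IntegrableOn (fun z => θ z * (χ z ^ 2 * (e z * a z ^ 2 + r z * b z ^ 2))) U := by
    have := (ct_int hU ok.ts (hq.continuousOn.mul ce) ta).add
      (ct_int hU ok.ts (hq.continuousOn.mul cr) tb)
    refine this.congr_fun (fun z _ => ?_) hU.measurableSet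
    simp only [Pi.add_apply, Pi.mul_apply]
    ring
  have t0 : Te U fun z => χ z ^ 2 * sqd σ τ v₁ v₂ W a b z :=
    (tsqd ok ot hv₁ hv₂ hW ha hb).mul_left hU hq
  have t6 : Te U fun z => χ z ^ 2 * sta σ τ v₁ v₂ W a b z :=
    (tsta ok ot hv₁ hv₂ hW ha hb).mul_left hU hq
  -- the pointwise inequality
  have P : In U θ (fun z => 4 * (χ z ^ 2 * lam z * ss σ (Ch.XX σ W a z) z) +
      4 * (χ z ^ 2 * mu z * ss τ (Ch.XX τ W b z) z)) ≤
      In U θ (fun z => χ z ^ 2 * sta σ τ v₁ v₂ W a b z) +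
        In U θ (fun z => χ z ^ 2 * (e z * a z ^ 2 + r z * b z ^ 2)) := by
    unfold In
    rw [← integral_add (te_int hU ok.ts t6) io]
    refine setIntegral_mono_on (te_int hU ok.ts (tY1.add hU tY2))
      ((te_int hU ok.ts t6).add io) hU.measurableSet fun z hz => ?_
    rw [← mul_add]
    refine mul_le_mul_of_nonneg_left ?_ (ok.tp z hz).le
    by_cases hs : z ∈ S
    · have h := pt z hz hs (Ch.XX σ W a z) (Ch.XX τ W b z) (a z) (b z)
      have e1 : sta σ τ v₁ v₂ W a b z = 8 * Ch.TH σ τ W z (Ch.XX σ W a z) (Ch.XX τ W b z) +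
          H747.S.qf σ τ v₁ v₂ W z (Ch.XX σ W a z) (Ch.XX τ W b z) (a z) (b z) := by
        unfold sta
        rw [H747.S.qs_qf]
      beta_reduce
      rw [e1]
      have := mul_le_mul_of_nonneg_left h (sq_nonneg (χ z))
      nlinarith
    · beta_reduce
      rw [h0 z hs]
      simp
  have dm : In U θ ((mT σ τ W χ lam mu e r).dens σ τ v₁ v₂ W a b) +
      In U θ (fun z => χ z ^ 2 * (e z * a z ^ 2 + r z * b z ^ 2)) =
      In U θ (fun z => χ z ^ 2 * sqd σ τ v₁ v₂ W a b z) + (In U θ X1 + In U θ X2) +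
        In U θ ((cT σ τ χ lam mu).dens σ τ v₁ v₂ W a b) := by
    have c1 : Te U fun z => 4 * lam z * σ.Γ χ χ z * a z ^ 2 + 4 * mu z * τ.Γ χ χ z * b z ^ 2 :=
      (ta.mul_left hU ((contDiffOn_const.mul sl).mul (ok.sG hχ hχ))).add hU
        (tb.mul_left hU ((contDiffOn_const.mul sm).mul (ot.sG hχ hχ)))
    have dc : In U θ ((cT σ τ χ lam mu).dens σ τ v₁ v₂ W a b) =
        In U θ fun z => 4 * lam z * σ.Γ χ χ z * a z ^ 2 + 4 * mu z * τ.Γ χ χ z * b z ^ 2 :=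
      In_congr hU fun z _ => by
        simp only [Q8.dens, cT]
        ring
    have de : In U θ ((mT σ τ W χ lam mu e r).dens σ τ v₁ v₂ W a b) +
        In U θ (fun z => χ z ^ 2 * (e z * a z ^ 2 + r z * b z ^ 2)) =
        In U θ fun z => (χ z ^ 2 * sqd σ τ v₁ v₂ W a b z + (X1 z + X2 z)) +
          (4 * lam z * σ.Γ χ χ z * a z ^ 2 + 4 * mu z * τ.Γ χ χ z * b z ^ 2) := by
      have T := (t0.add hU (tX1.add hU tX2)).add hU c1
      have i1 : IntegrableOn (fun z => θ z * (mT σ τ W χ lam mu e r).dens σ τ v₁ v₂ W a b z) U := by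
        have := (te_int hU ok.ts T).sub io
        refine this.congr_fun (fun z _ => ?_) hU.measurableSet
        simp only [Q8.dens, mT, Pi.sub_apply, hX1, hX2]
        ring
      unfold In
      rw [← integral_add i1 io]
      refine setIntegral_congr_fun hU.measurableSet fun z _ => ?_
      simp only [Q8.dens, mT, hX1, hX2]
      ring
    rw [de, dc, In_add hU ok.ts (t0.add hU (tX1.add hU tX2)) c1,
      In_add hU ok.ts t0 (tX1.add hU tX2), In_add hU ok.ts tX1 tX2]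
  have dd : In U θ (fun z => χ z ^ 2 * dn σ τ v₁ v₂ W a b z) =
      In U θ (fun z => χ z ^ 2 * sqd σ τ v₁ v₂ W a b z) +
        In U θ (fun z => χ z ^ 2 * sta σ τ v₁ v₂ W a b z) := by
    rw [← In_add hU ok.ts t0 t6]
    refine In_congr hU fun z _ => ?_
    unfold dn; ring
  rw [In_add hU ok.ts tY1 tY2] at P
  rw [dd]
  linarith

end zone

end Vale.Agent.P088.R2.H168.INF
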